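import Mathlib

namespace Vale.Agent.Helper21.MarkovDefs

/-- A stationary reversible Markov chain on a finite state space `S`: a transition
matrix `P` (nonnegative entries, rows summing to one), a probability vector `pi`
(the law of `Z_0`), and the reversibility condition `pi i * P i j = pi j * P j i`. -/
structure RevChain (S : Type) [Fintype S] where
  P : S → S → ℝ
  pi : S → ℝ
  P_nonneg : ∀ i j, 0 ≤ P i j
  P_sum : ∀ i, ∑ j, P i j = 1
  pi_nonneg : ∀ i, 0 ≤ pi i
  pi_sum : ∑ i, pi i = 1
  rev : ∀ i j, pi i * P i j = pi j * P j i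

/-- `displacement c f p t` is the expectation of `‖f (Z_t) - f (Z_0)‖ ^ p` for the
stationary chain `c`: the pair `(Z_0, Z_t)` has law `pi i * (P ^ t) i j`. -/
noncomputable def displacement {S : Type} [Fintype S] [DecidableEq S] {X : Type}
    [NormedAddCommGroup X] (c : RevChain S) (f : S → X) (p : ℝ) (t : ℕ) : ℝ :=
  ∑ i, ∑ j, c.pi i * ((Matrix.of c.P) ^ t) i j * ‖f i - f j‖ ^ p

/-- `X` has Markov type `p` with constant `K` (Ball): for every stationary reversible
finite chain, every map `f` of its state space into `X` and every time `t ≥ 1`,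
`E ‖f (Z_t) - f (Z_0)‖ ^ p ≤ K ^ p * t * E ‖f (Z_1) - f (Z_0)‖ ^ p`. -/
def MarkovType (X : Type) [NormedAddCommGroup X] (p K : ℝ) : Prop :=
  ∀ (S : Type) [Fintype S] [DecidableEq S] (c : RevChain S) (f : S → X) (t : ℕ), 1 ≤ t →
    displacement c f p t ≤ K ^ p * (t : ℝ) * displacement c f p 1

end Vale.Agent.Helper21.MarkovDefs
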