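import Mathlib
import Vale.Agent.Helper21.MarkovDefs

namespace Vale.Agent.Helper21.MarkovLemmas

open Finset Vale.Agent.Helper21.MarkovDefs

set_option linter.unusedSectionVars false

variable {ι : Type} [Fintype ι] [DecidableEq ι]

/-- flip coordinate `i` -/
def flip (i : ι) (x : ι → Bool) : ι → Bool := Function.update x i (!x i)

lemma flip_same (i : ι) (x : ι → Bool) : flip i x i = !x i := by
  simp [flip]

lemma flip_ne (i j : ι) (x : ι → Bool) (h : j ≠ i) : flip i x j = x j := by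
  simp [flip, Function.update_of_ne h]

lemma flip_flip (i : ι) (x : ι → Bool) : flip i (flip i x) = x := by
  funext j
  by_cases h : j = i
  · subst h; simp [flip_same]
  · simp [flip_ne _ _ _ h]

lemma flip_eq_iff (i : ι) (x y : ι → Bool) : flip i x = y ↔ flip i y = x := by
  constructor
  · intro h; rw [← h, flip_flip]
  · intro h; rw [← h, flip_flip]

/-- the flip equivalence -/
def flipEquiv (i : ι) : (ι → Bool) ≃ (ι → Bool) where
  toFun := flip i
  invFun := flip i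
  left_inv := flip_flip i
  right_inv := flip_flip i

/-- sign of a bit -/
def sgn (b : Bool) : ℝ := if b then 1 else -1

lemma sgn_not (b : Bool) : sgn (!b) = - sgn b := by
  cases b <;> simp [sgn]

lemma abs_sgn (b : Bool) : |sgn b| = 1 := by
  cases b <;> simp [sgn]

/-- the walk on the cube flipping a uniformly random coordinate -/
noncomputable def cubeChain (ι : Type) [Fintype ι] [DecidableEq ι] [Nonempty ι] :
    RevChain (ι → Bool) where
  P x y := (∑ i, if flip i x = y then (1:ℝ) else 0) / (Fintype.card ι : ℝ)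
  pi _ := 1 / (2:ℝ) ^ (Fintype.card ι)
  P_nonneg x y := by
    apply div_nonneg
    · apply Finset.sum_nonneg; intro i _; split_ifs <;> norm_num
    · positivity
  P_sum x := by
    rw [← Finset.sum_div, Finset.sum_comm]
    simp
  pi_nonneg x := by positivity
  pi_sum := by
    simp
  rev x y := by
    have : ∀ i, (if flip i x = y then (1:ℝ) else 0) = (if flip i y = x then (1:ℝ) else 0) := by
      intro i
      by_cases h : flip i x = y
      · rw [if_pos h, if_pos ((flip_eq_iff i x y).1 h)]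
      · rw [if_neg h, if_neg (fun h' => h ((flip_eq_iff i x y).2 h'))]
    simp only [this]

lemma cube_step [Nonempty ι] (x : ι → Bool) (φ : (ι → Bool) → ℝ) :
    ∑ y, (cubeChain ι).P x y * φ y = (∑ i, φ (flip i x)) / (Fintype.card ι : ℝ) := by
  have h1 : ∀ y, (cubeChain ι).P x y * φ y
      = (∑ i, (if flip i x = y then φ y else 0)) / (Fintype.card ι : ℝ) := by
    intro y
    simp only [cubeChain]
    rw [div_mul_eq_mul_div, Finset.sum_mul]
    congr 1
    apply Finset.sum_congr rfl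
    intro i _
    split_ifs <;> simp
  simp only [h1]
  rw [← Finset.sum_div, Finset.sum_comm]
  congr 1
  apply Finset.sum_congr rfl
  intro i _
  simp


lemma pow_sum_succ {S : Type} [Fintype S] [DecidableEq S] (c : RevChain S) (t : ℕ) (x : S)
    (φ : S → ℝ) :
    ∑ z, ((Matrix.of c.P) ^ (t + 1)) x z * φ z
      = ∑ y, c.P x y * ∑ z, ((Matrix.of c.P) ^ t) y z * φ z := by
  rw [pow_succ']
  simp only [Matrix.mul_apply, Matrix.of_apply, Finset.sum_mul, Finset.mul_sum]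
  rw [Finset.sum_comm]
  apply Finset.sum_congr rfl
  intro y _
  apply Finset.sum_congr rfl
  intro z _
  ring

lemma pow_sum_zero {S : Type} [Fintype S] [DecidableEq S] (c : RevChain S) (x : S)
    (φ : S → ℝ) :
    ∑ z, ((Matrix.of c.P) ^ 0) x z * φ z = φ x := by
  simp [Matrix.one_apply]

lemma cube_pow_one [Nonempty ι] (x : ι → Bool) (φ : (ι → Bool) → ℝ) :
    ∑ z, ((Matrix.of (cubeChain ι).P) ^ 1) x z * φ z
      = (∑ i, φ (flip i x)) / (Fintype.card ι : ℝ) := by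
  rw [pow_sum_succ]
  simp only [pow_sum_zero]
  rw [cube_step]

lemma cube_pow_two [Nonempty ι] (x : ι → Bool) (φ : (ι → Bool) → ℝ) :
    ∑ z, ((Matrix.of (cubeChain ι).P) ^ 2) x z * φ z
      = (∑ i, ∑ j, φ (flip j (flip i x))) / (Fintype.card ι : ℝ) ^ 2 := by
  rw [pow_sum_succ]
  simp only [cube_pow_one]
  rw [cube_step, ← Finset.sum_div, div_div, ← pow_two]

lemma cube_pow_three [Nonempty ι] (x : ι → Bool) (φ : (ι → Bool) → ℝ) :
    ∑ z, ((Matrix.of (cubeChain ι).P) ^ 3) x z * φ z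
      = (∑ i, ∑ j, ∑ k, φ (flip k (flip j (flip i x)))) / (Fintype.card ι : ℝ) ^ 3 := by
  rw [pow_sum_succ]
  simp only [cube_pow_two]
  rw [cube_step, ← Finset.sum_div, div_div]
  congr 1

lemma disp_eq {S : Type} [Fintype S] [DecidableEq S] {X : Type} [NormedAddCommGroup X]
    (c : RevChain S) (f : S → X) (p : ℝ) (t : ℕ) :
    displacement c f p t
      = ∑ x, c.pi x * ∑ z, ((Matrix.of c.P) ^ t) x z * ‖f x - f z‖ ^ p := by
  unfold displacement
  apply Finset.sum_congr rfl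
  intro x _
  rw [Finset.mul_sum]
  apply Finset.sum_congr rfl
  intro z _
  ring

lemma cube_disp_one [Nonempty ι] {X : Type} [NormedAddCommGroup X] (f : (ι → Bool) → X) (p : ℝ) :
    displacement (cubeChain ι) f p 1
      = (∑ x, ∑ i, ‖f x - f (flip i x)‖ ^ p)
          / ((2:ℝ) ^ (Fintype.card ι) * (Fintype.card ι : ℝ)) := by
  rw [disp_eq]
  simp only [cube_pow_one]
  rw [Finset.sum_div]
  apply Finset.sum_congr rfl
  intro x _
  simp only [cubeChain]
  rw [div_mul_div_comm, one_mul]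

lemma cube_disp_two [Nonempty ι] {X : Type} [NormedAddCommGroup X] (f : (ι → Bool) → X) (p : ℝ) :
    displacement (cubeChain ι) f p 2
      = (∑ x, ∑ i, ∑ j, ‖f x - f (flip j (flip i x))‖ ^ p)
          / ((2:ℝ) ^ (Fintype.card ι) * (Fintype.card ι : ℝ) ^ 2) := by
  rw [disp_eq]
  simp only [cube_pow_two]
  rw [Finset.sum_div]
  apply Finset.sum_congr rfl
  intro x _
  simp only [cubeChain]
  rw [div_mul_div_comm, one_mul]

lemma cube_disp_three [Nonempty ι] {X : Type} [NormedAddCommGroup X] (f : (ι → Bool) → X)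
    (p : ℝ) :
    displacement (cubeChain ι) f p 3
      = (∑ x, ∑ i, ∑ j, ∑ k, ‖f x - f (flip k (flip j (flip i x)))‖ ^ p)
          / ((2:ℝ) ^ (Fintype.card ι) * (Fintype.card ι : ℝ) ^ 3) := by
  rw [disp_eq]
  simp only [cube_pow_three]
  rw [Finset.sum_div]
  apply Finset.sum_congr rfl
  intro x _
  simp only [cubeChain]
  rw [div_mul_div_comm, one_mul]


variable {X : Type} [NormedAddCommGroup X] [NormedSpace ℝ X]

/-- the signed sum -/
noncomputable def sgnSum (w : ι → X) (x : ι → Bool) : X := ∑ l, sgn (x l) • w l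

lemma sgnSum_flip (w : ι → X) (i : ι) (x : ι → Bool) :
    sgnSum w x - sgnSum w (flip i x) = (2 * sgn (x i)) • w i := by
  unfold sgnSum
  rw [← Finset.sum_sub_distrib]
  rw [Finset.sum_eq_single i]
  · rw [flip_same, sgn_not, ← sub_smul]
    congr 1
    ring
  · intro l _ hl
    rw [flip_ne _ _ _ hl, sub_self]
  · intro h
    exact absurd (Finset.mem_univ i) h

lemma sgnSum_flip2 (w : ι → X) (i j : ι) (hij : i ≠ j) (x : ι → Bool) :
    sgnSum w x - sgnSum w (flip j (flip i x))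
      = (2:ℝ) • (sgn (x i) • w i + sgn (x j) • w j) := by
  have h1 := sgnSum_flip w i x
  have h2 := sgnSum_flip w j (flip i x)
  rw [flip_ne i j x (Ne.symm hij)] at h2
  have : sgnSum w x - sgnSum w (flip j (flip i x))
      = (sgnSum w x - sgnSum w (flip i x))
        + (sgnSum w (flip i x) - sgnSum w (flip j (flip i x))) := by abel
  rw [this, h1, h2, smul_add, smul_smul, smul_smul]

lemma norm_two_sgn_smul (b : Bool) (v : X) : ‖(2 * sgn b) • v‖ = 2 * ‖v‖ := by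
  rw [norm_smul, Real.norm_eq_abs, abs_mul, abs_sgn]
  norm_num

lemma pair_sum (w : ι → X) (i j : ι) (hij : i ≠ j) (p : ℝ) (x : ι → Bool) :
    ‖sgn (x i) • w i + sgn (x j) • w j‖ ^ p
      + ‖sgn (flip j x i) • w i + sgn (flip j x j) • w j‖ ^ p
      = ‖w i + w j‖ ^ p + ‖w i - w j‖ ^ p := by
  rw [flip_ne j i x hij, flip_same, sgn_not]
  have e1 : ‖-w i + w j‖ = ‖w i - w j‖ := by
    rw [← norm_neg]; congr 1; abel
  have e2 : ‖-w i - w j‖ = ‖w i + w j‖ := by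
    rw [← norm_neg]; congr 1; abel
  cases hi : x i <;> cases hj : x j <;>
    simp only [sgn, if_true, if_false, Bool.false_eq_true, one_smul, neg_smul, neg_neg,
      e1, e2, ← sub_eq_add_neg] <;> first | rfl | ring

lemma sum_pair (w : ι → X) (i j : ι) (hij : i ≠ j) (p : ℝ) :
    ∑ x : ι → Bool, ‖sgn (x i) • w i + sgn (x j) • w j‖ ^ p
      = (2:ℝ) ^ (Fintype.card ι) * ((‖w i + w j‖ ^ p + ‖w i - w j‖ ^ p) / 2) := by
  have h1 : ∑ x : ι → Bool, ‖sgn (flip j x i) • w i + sgn (flip j x j) • w j‖ ^ p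
      = ∑ x : ι → Bool, ‖sgn (x i) • w i + sgn (x j) • w j‖ ^ p :=
    Equiv.sum_comp (flipEquiv j) (fun x => ‖sgn (x i) • w i + sgn (x j) • w j‖ ^ p)
  have h2 : ∑ x : ι → Bool, (‖sgn (x i) • w i + sgn (x j) • w j‖ ^ p
      + ‖sgn (flip j x i) • w i + sgn (flip j x j) • w j‖ ^ p)
      = ∑ x : ι → Bool, (‖w i + w j‖ ^ p + ‖w i - w j‖ ^ p) :=
    Finset.sum_congr rfl (fun x _ => pair_sum w i j hij p x)
  rw [Finset.sum_add_distrib, h1] at h2
  rw [Finset.sum_const, Finset.card_univ] at h2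
  simp only [Fintype.card_pi, Fintype.card_bool, Finset.prod_const, Finset.card_univ,
    nsmul_eq_mul, Nat.cast_pow, Nat.cast_ofNat] at h2
  linarith


lemma sgn_disp_one [Nonempty ι] (w : ι → X) (p : ℝ) :
    displacement (cubeChain ι) (sgnSum w) p 1
      = (2:ℝ) ^ p * (∑ i, ‖w i‖ ^ p) / (Fintype.card ι : ℝ) := by
  rw [cube_disp_one]
  have h1 : ∀ x : ι → Bool, ∑ i, ‖sgnSum w x - sgnSum w (flip i x)‖ ^ p
      = (2:ℝ) ^ p * ∑ i, ‖w i‖ ^ p := by
    intro x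
    rw [Finset.mul_sum]
    apply Finset.sum_congr rfl
    intro i _
    rw [sgnSum_flip, norm_two_sgn_smul, Real.mul_rpow (by norm_num) (norm_nonneg _)]
  simp only [h1]
  rw [Finset.sum_const, Finset.card_univ]
  simp only [Fintype.card_pi, Fintype.card_bool, Finset.prod_const, Finset.card_univ,
    nsmul_eq_mul, Nat.cast_pow, Nat.cast_ofNat]
  have hn : (0:ℝ) < (2:ℝ) ^ (Fintype.card ι) := by positivity
  rw [mul_div_mul_left _ _ hn.ne']

lemma sgn_disp_two [Nonempty ι] (w : ι → X) (p : ℝ) (hp : p ≠ 0) :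
    displacement (cubeChain ι) (sgnSum w) p 2
      = (2:ℝ) ^ p * (∑ i, ∑ j, if i = j then 0 else (‖w i + w j‖ ^ p + ‖w i - w j‖ ^ p))
          / (2 * (Fintype.card ι : ℝ) ^ 2) := by
  rw [cube_disp_two]
  rw [Finset.sum_comm]
  have h1 : ∀ i : ι, ∑ x : ι → Bool, ∑ j, ‖sgnSum w x - sgnSum w (flip j (flip i x))‖ ^ p
      = ∑ j, (2:ℝ) ^ (Fintype.card ι) * ((2:ℝ) ^ p *
          ((if i = j then 0 else (‖w i + w j‖ ^ p + ‖w i - w j‖ ^ p)) / 2)) := by
    intro i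
    rw [Finset.sum_comm]
    apply Finset.sum_congr rfl
    intro j _
    by_cases hij : i = j
    · subst hij
      simp only [flip_flip, sub_self, norm_zero, Real.zero_rpow hp, if_true]
      simp
    · rw [if_neg hij]
      have h2 : ∀ x : ι → Bool, ‖sgnSum w x - sgnSum w (flip j (flip i x))‖ ^ p
          = (2:ℝ) ^ p * ‖sgn (x i) • w i + sgn (x j) • w j‖ ^ p := by
        intro x
        rw [sgnSum_flip2 w i j hij, norm_smul, Real.norm_eq_abs,
          abs_of_pos (by norm_num : (0:ℝ) < 2), Real.mul_rpow (by norm_num) (norm_nonneg _)]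
      simp only [h2]
      rw [← Finset.mul_sum, sum_pair w i j hij]
      ring
  simp only [h1]
  simp only [← Finset.mul_sum, ← Finset.sum_div]
  have hn : (0:ℝ) < (2:ℝ) ^ (Fintype.card ι) := by positivity
  have hc : (0:ℝ) < (Fintype.card ι : ℝ) := by
    have := Fintype.card_pos (α := ι)
    exact_mod_cast this
  field_simp

theorem key_ineq [Nonempty ι] (p K : ℝ) (hp : p ≠ 0) (h : MarkovType X p K) (w : ι → X) :
    (∑ i, ∑ j, if i = j then 0 else (‖w i + w j‖ ^ p + ‖w i - w j‖ ^ p))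
      ≤ 4 * K ^ p * (Fintype.card ι : ℝ) * ∑ i, ‖w i‖ ^ p := by
  have h2 := h (ι → Bool) (cubeChain ι) (sgnSum w) 2 (by norm_num)
  rw [sgn_disp_two w p hp, sgn_disp_one w p] at h2
  have hc : (0:ℝ) < (Fintype.card ι : ℝ) := by
    have := Fintype.card_pos (α := ι)
    exact_mod_cast this
  have h2p : (0:ℝ) < (2:ℝ) ^ p := Real.rpow_pos_of_pos (by norm_num) p
  rw [div_le_iff₀ (by positivity)] at h2
  have e : K ^ p * ((2:ℕ):ℝ) * ((2:ℝ) ^ p * (∑ i, ‖w i‖ ^ p) / (Fintype.card ι : ℝ))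
      * (2 * (Fintype.card ι : ℝ) ^ 2)
      = (2:ℝ) ^ p * (4 * K ^ p * (Fintype.card ι : ℝ) * ∑ i, ‖w i‖ ^ p) := by
    field_simp
    ring
  rw [e] at h2
  exact le_of_mul_le_mul_left h2 h2p


lemma sum_off_diag (m : ℕ) (c : ℝ) :
    ∑ a : Fin m, ∑ b : Fin m, (if a = b then 0 else c) = ((m:ℝ) ^ 2 - m) * c := by
  have h1 : ∀ a : Fin m, ∑ b : Fin m, (if a = b then 0 else c) = ((m:ℝ) - 1) * c := by
    intro a
    have h2 : ∀ b : Fin m, (if a = b then 0 else c) = c - (if a = b then c else 0) := by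
      intro b
      split_ifs <;> simp
    simp only [h2]
    rw [Finset.sum_sub_distrib, Finset.sum_ite_eq]
    simp
    ring
  simp only [h1]
  simp
  ring

theorem nj_m (p K : ℝ) (hp : p ≠ 0) (h : MarkovType X p K) (u v : X) (m : ℕ) (hm : 1 ≤ m) :
    ‖u + v‖ ^ p + ‖u - v‖ ^ p
      ≤ (4 * K ^ p - 2 ^ (p - 1)) * (‖u‖ ^ p + ‖v‖ ^ p)
        + 2 ^ (p - 1) * (‖u‖ ^ p + ‖v‖ ^ p) / m := by
  have : Nonempty (Fin m ⊕ Fin m) := ⟨Sum.inl ⟨0, hm⟩⟩
  have hk := key_ineq (ι := Fin m ⊕ Fin m) p K hp h (Sum.elim (fun _ => u) (fun _ => v))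
  simp only [Fintype.sum_sum_type, Sum.elim_inl, Sum.elim_inr, Sum.inl.injEq, Sum.inr.injEq,
    reduceCtorEq, if_false, Fintype.card_sum, Fintype.card_fin, Finset.sum_const,
    Finset.card_univ, nsmul_eq_mul, sub_self, norm_zero, Real.zero_rpow hp, add_zero] at hk
  have e1 : ‖u + u‖ ^ p = 2 ^ p * ‖u‖ ^ p := by
    rw [← two_smul ℝ u, norm_smul, Real.norm_eq_abs, abs_of_pos (by norm_num : (0:ℝ) < 2),
      Real.mul_rpow (by norm_num) (norm_nonneg _)]
  have e2 : ‖v + v‖ ^ p = 2 ^ p * ‖v‖ ^ p := by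
    rw [← two_smul ℝ v, norm_smul, Real.norm_eq_abs, abs_of_pos (by norm_num : (0:ℝ) < 2),
      Real.mul_rpow (by norm_num) (norm_nonneg _)]
  have e3 : ‖v + u‖ = ‖u + v‖ := by rw [add_comm]
  have e4 : ‖v - u‖ = ‖u - v‖ := norm_sub_rev v u
  have e5 : (2:ℝ) ^ p = 2 * 2 ^ (p - 1) := by
    rw [Real.rpow_sub_one (by norm_num)]
    ring
  rw [e1, e2, e3, e4, e5] at hk
  have hm' : (0:ℝ) < (m:ℝ) := by exact_mod_cast hm
  simp only [Finset.sum_add_distrib, sum_off_diag, Finset.sum_const, Finset.card_univ,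
    Fintype.card_fin, nsmul_eq_mul] at hk
  push_cast at hk
  rw [div_eq_mul_inv]
  have hinv : (m:ℝ) * (m:ℝ)⁻¹ = 1 := mul_inv_cancel₀ hm'.ne'
  have hm2 : (0:ℝ) < 2 * (m:ℝ) ^ 2 := by positivity
  apply le_of_mul_le_mul_left _ hm2
  have : 2 * (m:ℝ) ^ 2 * ((4 * K ^ p - 2 ^ (p - 1)) * (‖u‖ ^ p + ‖v‖ ^ p)
        + 2 ^ (p - 1) * (‖u‖ ^ p + ‖v‖ ^ p) * (m:ℝ)⁻¹)
      = 8 * K ^ p * (m:ℝ) ^ 2 * (‖u‖ ^ p + ‖v‖ ^ p)
        - 2 * 2 ^ (p - 1) * (m:ℝ) ^ 2 * (‖u‖ ^ p + ‖v‖ ^ p)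
        + 2 * 2 ^ (p - 1) * (m:ℝ) * ((m:ℝ) * (m:ℝ)⁻¹) * (‖u‖ ^ p + ‖v‖ ^ p) := by ring
  rw [this, hinv]
  nlinarith [hk]


theorem nj (p K : ℝ) (hp : p ≠ 0) (h : MarkovType X p K) (u v : X) :
    ‖u + v‖ ^ p + ‖u - v‖ ^ p ≤ (4 * K ^ p - 2 ^ (p - 1)) * (‖u‖ ^ p + ‖v‖ ^ p) := by
  by_contra hcon
  rw [not_le] at hcon
  set A := ‖u + v‖ ^ p + ‖u - v‖ ^ p with hA
  set B := (4 * K ^ p - 2 ^ (p - 1)) * (‖u‖ ^ p + ‖v‖ ^ p) with hB
  set C := (2:ℝ) ^ (p - 1) * (‖u‖ ^ p + ‖v‖ ^ p) with hC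
  have hC0 : 0 ≤ C := by
    have h1 : (0:ℝ) ≤ (2:ℝ) ^ (p - 1) := Real.rpow_nonneg (by norm_num) _
    have h2 : 0 ≤ ‖u‖ ^ p := Real.rpow_nonneg (norm_nonneg _) _
    have h3 : 0 ≤ ‖v‖ ^ p := Real.rpow_nonneg (norm_nonneg _) _
    positivity
  obtain ⟨m, hm⟩ := exists_nat_gt (C / (A - B))
  have hAB : 0 < A - B := by linarith
  have hm0 : (0:ℝ) < (m:ℝ) := lt_of_le_of_lt (div_nonneg hC0 hAB.le) hm
  have hm1 : 1 ≤ m := by
    have : 0 < m := by exact_mod_cast hm0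
    omega
  have hk := nj_m p K hp h u v m hm1
  have h4 : C / m < A - B := by
    rw [div_lt_iff₀ hm0]
    rw [div_lt_iff₀ hAB] at hm
    linarith
  linarith

lemma norm_sum_le_pair (n : ℕ) (y : Fin n → X) (hy : ∀ l, ‖y l‖ ≤ 1) (i j : Fin n)
    (hij : i ≠ j) : ‖∑ l, y l‖ ≤ ‖y i + y j‖ + ((n:ℝ) - 2) := by
  have h1 : ∑ l, y l = y i + ∑ l ∈ Finset.univ.erase i, y l :=
    (Finset.add_sum_erase Finset.univ y (Finset.mem_univ i)).symm
  have hj : j ∈ Finset.univ.erase i := Finset.mem_erase.2 ⟨Ne.symm hij, Finset.mem_univ j⟩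
  have h2 : ∑ l ∈ Finset.univ.erase i, y l
      = y j + ∑ l ∈ (Finset.univ.erase i).erase j, y l :=
    (Finset.add_sum_erase _ y hj).symm
  have h3 : ‖∑ l ∈ (Finset.univ.erase i).erase j, y l‖ ≤ ((n:ℝ) - 2) := by
    have hcard : ((Finset.univ.erase i).erase j).card + 2 = n := by
      rw [Finset.card_erase_of_mem hj, Finset.card_erase_of_mem (Finset.mem_univ i),
        Finset.card_univ, Fintype.card_fin]
      have : 2 ≤ n := by
        have hi := i.isLt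
        have hj' := j.isLt
        have : i.val ≠ j.val := fun h => hij (Fin.ext h)
        omega
      omega
    calc ‖∑ l ∈ (Finset.univ.erase i).erase j, y l‖
        ≤ ∑ l ∈ (Finset.univ.erase i).erase j, ‖y l‖ := norm_sum_le _ _
      _ ≤ ∑ l ∈ (Finset.univ.erase i).erase j, (1:ℝ) :=
          Finset.sum_le_sum (fun l _ => hy l)
      _ = (((Finset.univ.erase i).erase j).card : ℝ) := by simp
      _ = (n:ℝ) - 2 := by
          have : (((Finset.univ.erase i).erase j).card : ℝ) + 2 = n := by exact_mod_cast hcard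
          linarith
  rw [h1, h2, ← add_assoc]
  calc ‖y i + y j + ∑ l ∈ (Finset.univ.erase i).erase j, y l‖
      ≤ ‖y i + y j‖ + ‖∑ l ∈ (Finset.univ.erase i).erase j, y l‖ := norm_add_le _ _
    _ ≤ ‖y i + y j‖ + ((n:ℝ) - 2) := by linarith

theorem pairwise_bound (p K : ℝ) (hp : 0 < p) (hK : 0 ≤ K) (h : MarkovType X p K) (n : ℕ) (hn : 1 ≤ n)
    (x : Fin n → X) (hx : ∀ i, ‖x i‖ ≤ 1) (c : ℝ) (hc : 0 ≤ c)
    (hpair : ∀ i j, i ≠ j → c ≤ ‖x i + x j‖ ∧ c ≤ ‖x i - x j‖) :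
    ((n:ℝ) - 1) * c ^ p ≤ 2 * K ^ p * n := by
  have : Nonempty (Fin n) := ⟨⟨0, hn⟩⟩
  have hk := key_ineq (ι := Fin n) p K hp.ne' h x
  have hn0 : (0:ℝ) < (n:ℝ) := by exact_mod_cast hn
  have hK0 : 0 ≤ K ^ p := Real.rpow_nonneg hK p
  have hlow : ∑ i : Fin n, ∑ j : Fin n, (if i = j then 0 else 2 * c ^ p)
      ≤ ∑ i, ∑ j, if i = j then 0 else (‖x i + x j‖ ^ p + ‖x i - x j‖ ^ p) := by
    apply Finset.sum_le_sum
    intro i _
    apply Finset.sum_le_sum
    intro j _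
    by_cases hij : i = j
    · rw [if_pos hij, if_pos hij]
    · rw [if_neg hij, if_neg hij]
      have h1 := Real.rpow_le_rpow hc (hpair i j hij).1 hp.le
      have h2 := Real.rpow_le_rpow hc (hpair i j hij).2 hp.le
      linarith
  rw [sum_off_diag] at hlow
  have hup : ∑ i, ‖x i‖ ^ p ≤ (n:ℝ) := by
    calc ∑ i, ‖x i‖ ^ p ≤ ∑ i : Fin n, (1:ℝ) :=
          Finset.sum_le_sum (fun i _ => Real.rpow_le_one (norm_nonneg _) (hx i) hp.le)
      _ = (n:ℝ) := by simp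
  have h5 : 4 * K ^ p * (Fintype.card (Fin n) : ℝ) * ∑ i, ‖x i‖ ^ p ≤ 4 * K ^ p * n * n := by
    rw [Fintype.card_fin]
    apply mul_le_mul_of_nonneg_left hup
    positivity
  have h6 : ((n:ℝ) ^ 2 - n) * (2 * c ^ p) ≤ 4 * K ^ p * n * n := by linarith
  have h7 : (n:ℝ) * (((n:ℝ) - 1) * c ^ p) ≤ (n:ℝ) * (2 * K ^ p * n) := by nlinarith
  exact le_of_mul_le_mul_left h7 hn0


theorem jconvex (p K : ℝ) (hp : 1 ≤ p) (hK : 0 ≤ K) (h : MarkovType X p K)
    (hlt : K ^ p < 2 ^ (p - 1)) :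
    ∃ n : ℕ, 2 ≤ n ∧ ∃ δ : ℝ, 0 < δ ∧ ∀ x : Fin n → X, (∀ i, ‖x i‖ ≤ 1) →
      ∃ k : Fin n, ‖∑ i : Fin n, (if i.val < k.val then x i else - x i)‖ ≤ (n:ℝ) - δ := by
  have hp0 : 0 < p := by linarith
  have h2p : (0:ℝ) < (2:ℝ) ^ (p - 1) := Real.rpow_pos_of_pos (by norm_num) _
  have hK0 : 0 ≤ K ^ p := Real.rpow_nonneg hK p
  set r := K ^ p / 2 ^ (p - 1) with hr
  have hr0 : 0 ≤ r := div_nonneg hK0 h2p.le
  have hr1 : r < 1 := by rw [hr, div_lt_one h2p]; exact hlt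
  set a := (1 - r) / 2 with ha
  have ha0 : 0 < a := by rw [ha]; linarith
  have ha1 : a ≤ 1 / 2 := by rw [ha]; linarith
  obtain ⟨n, hn2, hn1⟩ : ∃ n : ℕ, 2 ≤ n ∧ (1:ℝ) / a < (n:ℝ) := by
    obtain ⟨n0, hn0⟩ := exists_nat_gt (1 / a)
    refine ⟨n0 + 2, by omega, ?_⟩
    push_cast
    linarith
  obtain ⟨δ, hδ⟩ : ∃ δ : ℝ, δ = 2 * a / p := ⟨_, rfl⟩
  have hδ0 : 0 < δ := by rw [hδ]; positivity
  refine ⟨n, hn2, δ, hδ0, ?_⟩
  intro x hx
  by_contra hcon
  push Not at hcon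
  have hδ1 : δ ≤ 1 := by
    rw [hδ, div_le_one hp0]
    linarith
  have hpair : ∀ i j : Fin n, i ≠ j → 2 - δ ≤ ‖x i + x j‖ ∧ 2 - δ ≤ ‖x i - x j‖ := by
    have key : ∀ i j : Fin n, i.val < j.val → 2 - δ ≤ ‖x i + x j‖ ∧ 2 - δ ≤ ‖x i - x j‖ := by
      intro i j hij
      have hne : i ≠ j := fun h => by rw [h] at hij; exact lt_irrefl _ hij
      constructor
      · have h0 := hcon ⟨0, by omega⟩
        have h1 := norm_sum_le_pair n (fun l => if l.val < 0 then x l else - x l)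
          (fun l => by simp [hx l]) i j hne
        simp only [Nat.not_lt_zero, if_false] at h0 h1
        have h2 : ‖-x i + -x j‖ = ‖x i + x j‖ := by
          rw [← norm_neg]; congr 1; abel
        rw [h2] at h1
        linarith
      · have h0 := hcon ⟨j.val, j.isLt⟩
        have h1 := norm_sum_le_pair n (fun l => if l.val < j.val then x l else - x l)
          (fun l => by split_ifs <;> simp [hx l]) i j hne
        simp only [hij, if_true, lt_irrefl, if_false] at h0 h1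
        have h2 : ‖x i + -x j‖ = ‖x i - x j‖ := by
          congr 1; abel
        rw [h2] at h1
        linarith
    intro i j hij
    rcases Nat.lt_or_gt_of_ne (fun h => hij (Fin.ext h)) with hlt' | hgt
    · exact key i j hlt'
    · have := key j i hgt
      rw [add_comm, norm_sub_rev] at this
      exact this
  have hb := pairwise_bound p K hp0 hK h n (by omega) x hx (2 - δ) (by linarith) hpair
  -- Bernoulli
  have hbern : (2:ℝ) ^ p * (1 - a) ≤ (2 - δ) ^ p := by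
    have h1 : (2 - δ) = 2 * (1 + (-(δ / 2))) := by ring
    rw [h1, Real.mul_rpow (by norm_num) (by linarith)]
    apply mul_le_mul_of_nonneg_left _ (Real.rpow_nonneg (by norm_num) _)
    have h2 := one_add_mul_self_le_rpow_one_add (s := -(δ / 2)) (by linarith) hp
    have h3 : 1 + p * (-(δ / 2)) = 1 - a := by
      rw [hδ]
      field_simp
      ring
    linarith
  have hnpos : (0:ℝ) < (n:ℝ) := lt_trans (by positivity) hn1
  have hna : 1 < a * (n:ℝ) := by
    rw [div_lt_iff₀ ha0] at hn1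
    linarith
  have e5 : (2:ℝ) ^ p = 2 * 2 ^ (p - 1) := by
    rw [Real.rpow_sub_one (by norm_num)]
    ring
  have hKr : K ^ p = r * 2 ^ (p - 1) := by
    rw [hr]; field_simp
  -- combine
  have h8 : ((n:ℝ) - 1) * ((2:ℝ) ^ p * (1 - a)) ≤ 2 * K ^ p * n := by
    have hn1' : (0:ℝ) ≤ (n:ℝ) - 1 := by
      have : (2:ℝ) ≤ (n:ℝ) := by exact_mod_cast hn2
      linarith
    calc ((n:ℝ) - 1) * ((2:ℝ) ^ p * (1 - a)) ≤ ((n:ℝ) - 1) * (2 - δ) ^ p :=
          mul_le_mul_of_nonneg_left hbern hn1'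
      _ ≤ 2 * K ^ p * n := hb
  rw [e5, hKr] at h8
  have h9 : ((n:ℝ) - 1) * (1 - a) ≤ r * n := by
    have : (2 * (2:ℝ) ^ (p - 1)) * (((n:ℝ) - 1) * (1 - a)) ≤ (2 * (2:ℝ) ^ (p - 1)) * (r * n) := by
      nlinarith
    exact le_of_mul_le_mul_left this (by positivity)
  have hr2 : r = 1 - 2 * a := by rw [ha]; ring
  rw [hr2] at h9
  nlinarith


theorem key_fin (p K : ℝ) (hp : p ≠ 0) (h : MarkovType X p K) (n : ℕ) (w : Fin n → X) :
    (∑ i, ∑ j, if i = j then 0 else (‖w i + w j‖ ^ p + ‖w i - w j‖ ^ p))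
      ≤ 4 * K ^ p * (n:ℝ) * ∑ i, ‖w i‖ ^ p := by
  rcases Nat.eq_zero_or_pos n with hn | hn
  · subst hn
    simp
  · have : Nonempty (Fin n) := ⟨⟨0, hn⟩⟩
    have hk := key_ineq (ι := Fin n) p K hp h w
    rw [Fintype.card_fin] at hk
    exact hk

theorem parallelogram (h : MarkovType X 2 1) (u v : X) :
    ‖u + v‖ ^ 2 + ‖u - v‖ ^ 2 = 2 * (‖u‖ ^ 2 + ‖v‖ ^ 2) := by
  have hle : ∀ a b : X, ‖a + b‖ ^ 2 + ‖a - b‖ ^ 2 ≤ 2 * (‖a‖ ^ 2 + ‖b‖ ^ 2) := by
    intro a b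
    have h1 := nj (2:ℝ) 1 (by norm_num) h a b
    have e : (4 * (1:ℝ) ^ (2:ℝ) - 2 ^ ((2:ℝ) - 1)) = 2 := by
      rw [Real.one_rpow]
      norm_num
    rw [e] at h1
    simp only [Real.rpow_two] at h1
    exact h1
  apply le_antisymm (hle u v)
  have h2 := hle (u + v) (u - v)
  have e1 : u + v + (u - v) = (2:ℝ) • u := by rw [two_smul]; abel
  have e2 : u + v - (u - v) = (2:ℝ) • v := by rw [two_smul]; abel
  rw [e1, e2, norm_smul, norm_smul, Real.norm_eq_abs, abs_of_pos (by norm_num : (0:ℝ) < 2)] at h2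
  nlinarith

end Vale.Agent.Helper21.MarkovLemmas
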