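import Mathlib
import Vale.Agent.Helper21.MarkovDefs

namespace Vale.Agent.Helper21.MarkovSumDefs

open Vale.Agent.Helper21.MarkovDefs

/-- The James sign pattern sum: plus on the coordinates before `k`, minus on the others. -/
def patSum {n : ℕ} (k : Fin n) (a : Fin n → ℝ) : ℝ :=
  ∑ l : Fin n, if l.val < k.val then a l else - a l

/-- The summing norm on `Fin n → ℝ`: the largest absolute value of a James pattern sum.
It is the sup norm of the image of `a` under the summing operator. -/
noncomputable def sumNorm {n : ℕ} (a : Fin n → ℝ) : ℝ :=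
  ⨆ k : Fin n, |patSum k a|

/-- `E (sumNorm (f (Z_t) - f (Z_0))) ^ p` for the stationary chain `c`. -/
noncomputable def sumDisp {S : Type} [Fintype S] [DecidableEq S] {n : ℕ}
    (c : RevChain S) (f : S → Fin n → ℝ) (p : ℝ) (t : ℕ) : ℝ :=
  ∑ i, ∑ j, c.pi i * ((Matrix.of c.P) ^ t) i j * sumNorm (fun l => f i l - f j l) ^ p

/-- `E (l1 norm of f (Z_1) - f (Z_0)) ^ p` for the stationary chain `c`. -/
noncomputable def l1Disp {S : Type} [Fintype S] {n : ℕ}
    (c : RevChain S) (f : S → Fin n → ℝ) (p : ℝ) : ℝ :=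
  ∑ i, ∑ j, c.pi i * c.P i j * (∑ l, |f i l - f j l|) ^ p

end Vale.Agent.Helper21.MarkovSumDefs
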