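import Mathlib
import Vale.Agent.Helper21.MarkovDefs
import Vale.Agent.Helper21.MarkovLemmas

namespace Vale.Agent.Helper21.MarkovThree

open Finset Vale.Agent.Helper21.MarkovDefs Vale.Agent.Helper21.MarkovLemmas

set_option linter.unusedSectionVars false

variable {ι : Type} [Fintype ι] [DecidableEq ι]
variable {X : Type} [NormedAddCommGroup X] [NormedSpace ℝ X]

/-- the sum of the `p`-th powers of the four sign patterns of three vectors -/
noncomputable def tri (p : ℝ) (u v z : X) : ℝ :=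
  ‖u + v + z‖ ^ p + ‖u + v - z‖ ^ p + ‖u - v + z‖ ^ p + ‖u - v - z‖ ^ p

lemma tri_nonneg (p : ℝ) (u v z : X) : 0 ≤ tri p u v z := by
  unfold tri
  have h1 := Real.rpow_nonneg (norm_nonneg (u + v + z)) p
  have h2 := Real.rpow_nonneg (norm_nonneg (u + v - z)) p
  have h3 := Real.rpow_nonneg (norm_nonneg (u - v + z)) p
  have h4 := Real.rpow_nonneg (norm_nonneg (u - v - z)) p
  linarith

lemma tri_swap12 (p : ℝ) (u v z : X) : tri p u v z = tri p v u z := by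
  unfold tri
  have e1 : ‖v + u + z‖ = ‖u + v + z‖ := by congr 1; abel
  have e2 : ‖v + u - z‖ = ‖u + v - z‖ := by congr 1; abel
  have e3 : ‖v - u + z‖ = ‖u - v - z‖ := by
    rw [← norm_neg]; congr 1; abel
  have e4 : ‖v - u - z‖ = ‖u - v + z‖ := by
    rw [← norm_neg]; congr 1; abel
  rw [e1, e2, e3, e4]
  ring

lemma tri_swap23 (p : ℝ) (u v z : X) : tri p u v z = tri p u z v := by
  unfold tri
  have e1 : ‖u + z + v‖ = ‖u + v + z‖ := by congr 1; abel
  have e2 : ‖u + z - v‖ = ‖u - v + z‖ := by congr 1; abel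
  have e3 : ‖u - z + v‖ = ‖u + v - z‖ := by congr 1; abel
  have e4 : ‖u - z - v‖ = ‖u - v - z‖ := by congr 1; abel
  rw [e1, e2, e3, e4]
  ring

lemma sgn_cases (b : Bool) : sgn b = 1 ∨ sgn b = -1 := by
  cases b <;> simp [sgn]

lemma tri_signs (p : ℝ) (u v z : X) (a b c : ℝ) (ha : a = 1 ∨ a = -1) (hb : b = 1 ∨ b = -1)
    (hc : c = 1 ∨ c = -1) :
    ‖a • u + b • v + c • z‖ ^ p + ‖a • u + (-b) • v + c • z‖ ^ p
      + ‖a • u + b • v + (-c) • z‖ ^ p + ‖a • u + (-b) • v + (-c) • z‖ ^ p = tri p u v z := by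
  unfold tri
  have f1 : ‖-u + -v + -z‖ = ‖u + v + z‖ := by rw [← norm_neg]; congr 1; abel
  have f2 : ‖-u + -v + z‖ = ‖u + v - z‖ := by rw [← norm_neg]; congr 1; abel
  have f3 : ‖-u + v + -z‖ = ‖u - v + z‖ := by rw [← norm_neg]; congr 1; abel
  have f4 : ‖-u + v + z‖ = ‖u - v - z‖ := by rw [← norm_neg]; congr 1; abel
  have f5 : ‖u + v + -z‖ = ‖u + v - z‖ := by congr 1; abel
  have f6 : ‖u + -v + z‖ = ‖u - v + z‖ := by congr 1; abel
  have f7 : ‖u + -v + -z‖ = ‖u - v - z‖ := by congr 1; abel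
  rcases ha with rfl | rfl <;> rcases hb with rfl | rfl <;> rcases hc with rfl | rfl <;>
    simp only [one_smul, neg_smul, neg_neg, f1, f2, f3, f4, f5, f6, f7] <;> ring

lemma sgnSum_flip3 (w : ι → X) (i j k : ι) (hij : i ≠ j) (hik : i ≠ k) (hjk : j ≠ k)
    (x : ι → Bool) :
    sgnSum w x - sgnSum w (flip k (flip j (flip i x)))
      = (2:ℝ) • (sgn (x i) • w i + sgn (x j) • w j + sgn (x k) • w k) := by
  have h1 := sgnSum_flip2 w i j hij x
  have h2 := sgnSum_flip w k (flip j (flip i x))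
  rw [flip_ne j k _ (Ne.symm hjk), flip_ne i k x (Ne.symm hik)] at h2
  have : sgnSum w x - sgnSum w (flip k (flip j (flip i x)))
      = (sgnSum w x - sgnSum w (flip j (flip i x)))
        + (sgnSum w (flip j (flip i x)) - sgnSum w (flip k (flip j (flip i x)))) := by abel
  rw [this, h1, h2, smul_add, smul_add, smul_add, smul_smul, smul_smul, smul_smul]

/-- the summand for three fixed coordinates -/
noncomputable def g3 (w : ι → X) (i j k : ι) (p : ℝ) (x : ι → Bool) : ℝ :=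
  ‖sgn (x i) • w i + sgn (x j) • w j + sgn (x k) • w k‖ ^ p

lemma triple_sum (w : ι → X) (i j k : ι) (hij : i ≠ j) (hik : i ≠ k) (hjk : j ≠ k) (p : ℝ)
    (x : ι → Bool) :
    g3 w i j k p x + g3 w i j k p (flip j x) + g3 w i j k p (flip k x)
      + g3 w i j k p (flip k (flip j x)) = tri p (w i) (w j) (w k) := by
  unfold g3
  rw [flip_ne j i x hij, flip_same j x, flip_ne j k x (Ne.symm hjk),
    flip_ne k i x hik, flip_ne k j x hjk, flip_same k x,
    flip_ne k i (flip j x) hik, flip_ne k j (flip j x) hjk, flip_same k (flip j x),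
    flip_ne j i x hij, flip_same j x, flip_ne j k x (Ne.symm hjk)]
  simp only [sgn_not]
  exact tri_signs p (w i) (w j) (w k) _ _ _ (sgn_cases _) (sgn_cases _) (sgn_cases _)

lemma sum_g3 (w : ι → X) (i j k : ι) (hij : i ≠ j) (hik : i ≠ k) (hjk : j ≠ k) (p : ℝ) :
    ∑ x : ι → Bool, g3 w i j k p x
      = (2:ℝ) ^ (Fintype.card ι) * (tri p (w i) (w j) (w k) / 4) := by
  have h1 : ∑ x : ι → Bool, g3 w i j k p (flip j x) = ∑ x : ι → Bool, g3 w i j k p x :=
    Equiv.sum_comp (flipEquiv j) (g3 w i j k p)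
  have h2 : ∑ x : ι → Bool, g3 w i j k p (flip k x) = ∑ x : ι → Bool, g3 w i j k p x :=
    Equiv.sum_comp (flipEquiv k) (g3 w i j k p)
  have h3 : ∑ x : ι → Bool, g3 w i j k p (flip k (flip j x))
      = ∑ x : ι → Bool, g3 w i j k p x :=
    Equiv.sum_comp ((flipEquiv j).trans (flipEquiv k)) (g3 w i j k p)
  have h4 : ∑ x : ι → Bool, (g3 w i j k p x + g3 w i j k p (flip j x) + g3 w i j k p (flip k x)
      + g3 w i j k p (flip k (flip j x)))
      = ∑ x : ι → Bool, tri p (w i) (w j) (w k) :=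
    Finset.sum_congr rfl (fun x _ => triple_sum w i j k hij hik hjk p x)
  rw [Finset.sum_add_distrib, Finset.sum_add_distrib, Finset.sum_add_distrib, h1, h2, h3] at h4
  rw [Finset.sum_const, Finset.card_univ] at h4
  simp only [Fintype.card_pi, Fintype.card_bool, Finset.prod_const, Finset.card_univ,
    nsmul_eq_mul, Nat.cast_pow, Nat.cast_ofNat] at h4
  linarith

/-- the weight of an ordered triple of coordinates -/
noncomputable def tw (w : ι → X) (p : ℝ) (i j k : ι) : ℝ :=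
  if i ≠ j ∧ i ≠ k ∧ j ≠ k then tri p (w i) (w j) (w k) else 0

lemma sum_x_lower (w : ι → X) (p : ℝ) (i j k : ι) :
    (2:ℝ) ^ (Fintype.card ι) * ((2:ℝ) ^ p * (tw w p i j k / 4))
      ≤ ∑ x : ι → Bool, ‖sgnSum w x - sgnSum w (flip k (flip j (flip i x)))‖ ^ p := by
  unfold tw
  by_cases hd : i ≠ j ∧ i ≠ k ∧ j ≠ k
  · rw [if_pos hd]
    obtain ⟨hij, hik, hjk⟩ := hd
    have h2 : ∀ x : ι → Bool, ‖sgnSum w x - sgnSum w (flip k (flip j (flip i x)))‖ ^ p
        = (2:ℝ) ^ p * g3 w i j k p x := by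
      intro x
      rw [sgnSum_flip3 w i j k hij hik hjk, norm_smul, Real.norm_eq_abs,
        abs_of_pos (by norm_num : (0:ℝ) < 2), Real.mul_rpow (by norm_num) (norm_nonneg _)]
      rfl
    simp only [h2]
    rw [← Finset.mul_sum, sum_g3 w i j k hij hik hjk]
    apply le_of_eq
    ring
  · rw [if_neg hd]
    have h0 : (2:ℝ) ^ (Fintype.card ι) * ((2:ℝ) ^ p * ((0:ℝ) / 4)) = 0 := by simp
    rw [h0]
    apply Finset.sum_nonneg
    intro x _
    exact Real.rpow_nonneg (norm_nonneg _) p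

lemma sgn_disp_three_lower [Nonempty ι] (w : ι → X) (p : ℝ) :
    (2:ℝ) ^ p * (∑ i, ∑ j, ∑ k, tw w p i j k) / (4 * (Fintype.card ι : ℝ) ^ 3)
      ≤ displacement (cubeChain ι) (sgnSum w) p 3 := by
  rw [cube_disp_three]
  have e : ∑ x : ι → Bool, ∑ i : ι, ∑ j : ι, ∑ k : ι,
      ‖sgnSum w x - sgnSum w (flip k (flip j (flip i x)))‖ ^ p
      = ∑ i : ι, ∑ j : ι, ∑ k : ι, ∑ x : ι → Bool,
          ‖sgnSum w x - sgnSum w (flip k (flip j (flip i x)))‖ ^ p := by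
    rw [Finset.sum_comm]
    apply Finset.sum_congr rfl
    intro i _
    rw [Finset.sum_comm]
    apply Finset.sum_congr rfl
    intro j _
    rw [Finset.sum_comm]
  rw [e]
  have hlow : ∑ i, ∑ j, ∑ k, (2:ℝ) ^ (Fintype.card ι) * ((2:ℝ) ^ p * (tw w p i j k / 4))
      ≤ ∑ i : ι, ∑ j : ι, ∑ k : ι, ∑ x : ι → Bool,
          ‖sgnSum w x - sgnSum w (flip k (flip j (flip i x)))‖ ^ p := by
    apply Finset.sum_le_sum
    intro i _
    apply Finset.sum_le_sum
    intro j _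
    apply Finset.sum_le_sum
    intro k _
    exact sum_x_lower w p i j k
  have hn : (0:ℝ) < (2:ℝ) ^ (Fintype.card ι) := by positivity
  have hc : (0:ℝ) < (Fintype.card ι : ℝ) := by
    have := Fintype.card_pos (α := ι)
    exact_mod_cast this
  have hre : ∑ i, ∑ j, ∑ k, (2:ℝ) ^ (Fintype.card ι) * ((2:ℝ) ^ p * (tw w p i j k / 4))
      = (2:ℝ) ^ (Fintype.card ι) * ((2:ℝ) ^ p * ((∑ i, ∑ j, ∑ k, tw w p i j k) / 4)) := by
    simp only [← Finset.mul_sum, ← Finset.sum_div]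
  rw [hre] at hlow
  rw [div_le_div_iff₀ (by positivity) (by positivity)]
  nlinarith [hlow, mul_pos hn (pow_pos hc 3)]

theorem key3 [Nonempty ι] (p K : ℝ) (h : MarkovType X p K) (w : ι → X) :
    (∑ i, ∑ j, ∑ k, tw w p i j k)
      ≤ 12 * K ^ p * (Fintype.card ι : ℝ) ^ 2 * ∑ i, ‖w i‖ ^ p := by
  have h3 := h (ι → Bool) (cubeChain ι) (sgnSum w) 3 (by norm_num)
  rw [sgn_disp_one w p] at h3
  have hl := sgn_disp_three_lower w p
  have hc : (0:ℝ) < (Fintype.card ι : ℝ) := by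
    have := Fintype.card_pos (α := ι)
    exact_mod_cast this
  have h2p : (0:ℝ) < (2:ℝ) ^ p := Real.rpow_pos_of_pos (by norm_num) p
  have h5 := le_trans hl h3
  rw [div_le_iff₀ (by positivity)] at h5
  have e : K ^ p * ((3:ℕ):ℝ) * ((2:ℝ) ^ p * (∑ i, ‖w i‖ ^ p) / (Fintype.card ι : ℝ))
      * (4 * (Fintype.card ι : ℝ) ^ 3)
      = (2:ℝ) ^ p * (12 * K ^ p * (Fintype.card ι : ℝ) ^ 2 * ∑ i, ‖w i‖ ^ p) := by
    field_simp
    push_cast
    ring
  rw [e] at h5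
  exact le_of_mul_le_mul_left h5 h2p

lemma norm_sum_le_triple (n : ℕ) (y : Fin n → X) (hy : ∀ l, ‖y l‖ ≤ 1) (a b c : Fin n)
    (hab : a ≠ b) (hac : a ≠ c) (hbc : b ≠ c) :
    ‖∑ l, y l‖ ≤ ‖y a + y b + y c‖ + ((n:ℝ) - 3) := by
  have h1 : ∑ l, y l = y a + ∑ l ∈ Finset.univ.erase a, y l :=
    (Finset.add_sum_erase Finset.univ y (Finset.mem_univ a)).symm
  have hb : b ∈ Finset.univ.erase a := Finset.mem_erase.2 ⟨Ne.symm hab, Finset.mem_univ b⟩
  have h2 : ∑ l ∈ Finset.univ.erase a, y l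
      = y b + ∑ l ∈ (Finset.univ.erase a).erase b, y l :=
    (Finset.add_sum_erase _ y hb).symm
  have hc : c ∈ (Finset.univ.erase a).erase b :=
    Finset.mem_erase.2 ⟨Ne.symm hbc, Finset.mem_erase.2 ⟨Ne.symm hac, Finset.mem_univ c⟩⟩
  have h3 : ∑ l ∈ (Finset.univ.erase a).erase b, y l
      = y c + ∑ l ∈ ((Finset.univ.erase a).erase b).erase c, y l :=
    (Finset.add_sum_erase _ y hc).symm
  have h4 : ‖∑ l ∈ ((Finset.univ.erase a).erase b).erase c, y l‖ ≤ ((n:ℝ) - 3) := by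
    have hcard : (((Finset.univ.erase a).erase b).erase c).card + 3 = n := by
      rw [Finset.card_erase_of_mem hc, Finset.card_erase_of_mem hb,
        Finset.card_erase_of_mem (Finset.mem_univ a), Finset.card_univ, Fintype.card_fin]
      have : 3 ≤ n := by
        have ha' := a.isLt
        have hb' := b.isLt
        have hc' := c.isLt
        have e1 : a.val ≠ b.val := fun h => hab (Fin.ext h)
        have e2 : a.val ≠ c.val := fun h => hac (Fin.ext h)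
        have e3 : b.val ≠ c.val := fun h => hbc (Fin.ext h)
        omega
      omega
    calc ‖∑ l ∈ ((Finset.univ.erase a).erase b).erase c, y l‖
        ≤ ∑ l ∈ ((Finset.univ.erase a).erase b).erase c, ‖y l‖ := norm_sum_le _ _
      _ ≤ ∑ l ∈ ((Finset.univ.erase a).erase b).erase c, (1:ℝ) :=
          Finset.sum_le_sum (fun l _ => hy l)
      _ = ((((Finset.univ.erase a).erase b).erase c).card : ℝ) := by simp
      _ = (n:ℝ) - 3 := by
          have : ((((Finset.univ.erase a).erase b).erase c).card : ℝ) + 3 = n := by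
            exact_mod_cast hcard
          linarith
  rw [h1, h2, h3, ← add_assoc, ← add_assoc]
  calc ‖y a + y b + y c + ∑ l ∈ ((Finset.univ.erase a).erase b).erase c, y l‖
      ≤ ‖y a + y b + y c‖ + ‖∑ l ∈ ((Finset.univ.erase a).erase b).erase c, y l‖ :=
        norm_add_le _ _
    _ ≤ ‖y a + y b + y c‖ + ((n:ℝ) - 3) := by linarith

lemma bad_triple (n : ℕ) (x : Fin n → X) (hx : ∀ l, ‖x l‖ ≤ 1) (δ : ℝ)
    (hcon : ∀ m : Fin n,
      (n:ℝ) - δ < ‖∑ l : Fin n, (if l.val < m.val then x l else - x l)‖)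
    (a b c : Fin n) (hab : a.val < b.val) (hbc : b.val < c.val) :
    3 - δ ≤ ‖x a + x b + x c‖ ∧ 3 - δ ≤ ‖x a + x b - x c‖ ∧ 3 - δ ≤ ‖x a - x b - x c‖
      ∧ 1 - δ ≤ ‖x a - x b + x c‖ := by
  have hac : a.val < c.val := lt_trans hab hbc
  have nab : a ≠ b := fun h => by rw [h] at hab; exact lt_irrefl _ hab
  have nac : a ≠ c := fun h => by rw [h] at hac; exact lt_irrefl _ hac
  have nbc : b ≠ c := fun h => by rw [h] at hbc; exact lt_irrefl _ hbc
  have hcb : ¬ (c.val < b.val) := by omega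
  have p1 : 3 - δ ≤ ‖x a + x b + x c‖ := by
    have h0 := hcon ⟨0, by omega⟩
    have h1 := norm_sum_le_triple n (fun l => if l.val < 0 then x l else - x l)
      (fun l => by simp [hx l]) a b c nab nac nbc
    simp only [Nat.not_lt_zero, if_false] at h0 h1
    have h2 : ‖-x a + -x b + -x c‖ = ‖x a + x b + x c‖ := by
      rw [← norm_neg]; congr 1; abel
    rw [h2] at h1
    linarith
  have p2 : 3 - δ ≤ ‖x a + x b - x c‖ := by
    have h0 := hcon ⟨c.val, c.isLt⟩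
    have h1 := norm_sum_le_triple n (fun l => if l.val < c.val then x l else - x l)
      (fun l => by split_ifs <;> simp [hx l]) a b c nab nac nbc
    simp only [hac, hbc, if_true, lt_irrefl, if_false] at h0 h1
    have h2 : ‖x a + x b + -x c‖ = ‖x a + x b - x c‖ := by
      congr 1; abel
    rw [h2] at h1
    linarith
  have p3 : 3 - δ ≤ ‖x a - x b - x c‖ := by
    have h0 := hcon ⟨b.val, b.isLt⟩
    have h1 := norm_sum_le_triple n (fun l => if l.val < b.val then x l else - x l)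
      (fun l => by split_ifs <;> simp [hx l]) a b c nab nac nbc
    simp only [hab, hcb, if_true, lt_irrefl, if_false] at h0 h1
    have h2 : ‖x a + -x b + -x c‖ = ‖x a - x b - x c‖ := by
      congr 1; abel
    rw [h2] at h1
    linarith
  refine ⟨p1, p2, p3, ?_⟩
  have e : x a + x b + x c = (x a - x b + x c) + (2:ℝ) • x b := by
    rw [two_smul]; abel
  have h5 : ‖x a + x b + x c‖ ≤ ‖x a - x b + x c‖ + ‖(2:ℝ) • x b‖ := by
    rw [e]; exact norm_add_le _ _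
  have h6 : ‖(2:ℝ) • x b‖ ≤ 2 := by
    rw [norm_smul, Real.norm_eq_abs, abs_of_pos (by norm_num : (0:ℝ) < 2)]
    have := hx b
    linarith
  linarith

lemma tri_sorted (n : ℕ) (x : Fin n → X) (hx : ∀ l, ‖x l‖ ≤ 1) (δ p : ℝ) (hp : 0 ≤ p)
    (hδ : δ ≤ 1)
    (hcon : ∀ m : Fin n,
      (n:ℝ) - δ < ‖∑ l : Fin n, (if l.val < m.val then x l else - x l)‖)
    (a b c : Fin n) (hab : a.val < b.val) (hbc : b.val < c.val) :
    3 * (3 - δ) ^ p + (1 - δ) ^ p ≤ tri p (x a) (x b) (x c) := by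
  obtain ⟨p1, p2, p3, p4⟩ := bad_triple n x hx δ hcon a b c hab hbc
  unfold tri
  have q1 := Real.rpow_le_rpow (by linarith) p1 hp
  have q2 := Real.rpow_le_rpow (by linarith) p2 hp
  have q3 := Real.rpow_le_rpow (by linarith) p3 hp
  have q4 := Real.rpow_le_rpow (by linarith) p4 hp
  linarith

lemma tri_all (n : ℕ) (x : Fin n → X) (hx : ∀ l, ‖x l‖ ≤ 1) (δ p : ℝ) (hp : 0 ≤ p)
    (hδ : δ ≤ 1)
    (hcon : ∀ m : Fin n,
      (n:ℝ) - δ < ‖∑ l : Fin n, (if l.val < m.val then x l else - x l)‖)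
    (i j k : Fin n) (hij : i ≠ j) (hik : i ≠ k) (hjk : j ≠ k) :
    3 * (3 - δ) ^ p + (1 - δ) ^ p ≤ tri p (x i) (x j) (x k) := by
  have e1 : i.val ≠ j.val := fun h => hij (Fin.ext h)
  have e2 : i.val ≠ k.val := fun h => hik (Fin.ext h)
  have e3 : j.val ≠ k.val := fun h => hjk (Fin.ext h)
  have srt := tri_sorted n x hx δ p hp hδ hcon
  rcases Nat.lt_or_gt_of_ne e1 with h1 | h1 <;> rcases Nat.lt_or_gt_of_ne e3 with h2 | h2 <;>
    rcases Nat.lt_or_gt_of_ne e2 with h3 | h3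
  · exact srt i j k h1 h2
  · omega
  · rw [tri_swap23 p (x i) (x j) (x k)]
    exact srt i k j h3 h2
  · rw [tri_swap23 p (x i) (x j) (x k), tri_swap12 p (x i) (x k) (x j)]
    exact srt k i j h3 h1
  · rw [tri_swap12 p (x i) (x j) (x k)]
    exact srt j i k h1 h3
  · rw [tri_swap12 p (x i) (x j) (x k), tri_swap23 p (x j) (x i) (x k)]
    exact srt j k i h2 h3
  · omega
  · rw [tri_swap12 p (x i) (x j) (x k), tri_swap23 p (x j) (x i) (x k),
      tri_swap12 p (x j) (x k) (x i)]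
    exact srt k j i h2 h1

lemma count3 (n : ℕ) (c : ℝ) :
    ∑ i : Fin n, ∑ j : Fin n, ∑ k : Fin n,
      c * (1 - (if i = j then (1:ℝ) else 0) - (if i = k then (1:ℝ) else 0)
        - (if j = k then (1:ℝ) else 0))
      = c * ((n:ℝ) ^ 3 - 3 * (n:ℝ) ^ 2) := by
  have inner : ∀ i j : Fin n, ∑ k : Fin n,
      c * (1 - (if i = j then (1:ℝ) else 0) - (if i = k then (1:ℝ) else 0)
        - (if j = k then (1:ℝ) else 0))
      = c * ((n:ℝ) - (n:ℝ) * (if i = j then (1:ℝ) else 0) - 2) := by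
    intro i j
    rw [← Finset.mul_sum]
    congr 1
    rw [Finset.sum_sub_distrib, Finset.sum_sub_distrib, Finset.sum_sub_distrib]
    simp only [Finset.sum_const, Finset.card_univ, Fintype.card_fin, nsmul_eq_mul, mul_one,
      Finset.sum_ite_eq, Finset.mem_univ, if_true]
    ring
  simp only [inner]
  have mid : ∀ i : Fin n, ∑ j : Fin n,
      c * ((n:ℝ) - (n:ℝ) * (if i = j then (1:ℝ) else 0) - 2)
      = c * ((n:ℝ) ^ 2 - 3 * (n:ℝ)) := by
    intro i
    rw [← Finset.mul_sum]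
    congr 1
    rw [Finset.sum_sub_distrib, Finset.sum_sub_distrib, ← Finset.mul_sum]
    simp only [Finset.sum_const, Finset.card_univ, Fintype.card_fin, nsmul_eq_mul,
      Finset.sum_ite_eq, Finset.mem_univ, if_true]
    ring
  simp only [mid]
  rw [Finset.sum_const, Finset.card_univ, Fintype.card_fin, nsmul_eq_mul]
  ring

lemma term_low (n : ℕ) (x : Fin n → X) (hx : ∀ l, ‖x l‖ ≤ 1) (δ p : ℝ) (hp : 0 ≤ p)
    (hδ : δ ≤ 1)
    (hcon : ∀ m : Fin n,
      (n:ℝ) - δ < ‖∑ l : Fin n, (if l.val < m.val then x l else - x l)‖)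
    (c0 : ℝ) (hc0def : c0 = 3 * (3 - δ) ^ p + (1 - δ) ^ p) (hc0 : 0 ≤ c0) (i j k : Fin n) :
    c0 * (1 - (if i = j then (1:ℝ) else 0) - (if i = k then (1:ℝ) else 0)
      - (if j = k then (1:ℝ) else 0)) ≤ tw x p i j k := by
  have htw0 : 0 ≤ tw x p i j k := by
    unfold tw
    split_ifs
    · exact tri_nonneg p _ _ _
    · exact le_refl _
  have e1 : (0:ℝ) ≤ (if i = j then (1:ℝ) else 0) := by split_ifs <;> norm_num
  have e2 : (0:ℝ) ≤ (if i = k then (1:ℝ) else 0) := by split_ifs <;> norm_num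
  have e3 : (0:ℝ) ≤ (if j = k then (1:ℝ) else 0) := by split_ifs <;> norm_num
  have m1 := mul_nonneg hc0 e1
  have m2 := mul_nonneg hc0 e2
  have m3 := mul_nonneg hc0 e3
  have ex : c0 * (1 - (if i = j then (1:ℝ) else 0) - (if i = k then (1:ℝ) else 0)
      - (if j = k then (1:ℝ) else 0))
      = c0 - c0 * (if i = j then (1:ℝ) else 0) - c0 * (if i = k then (1:ℝ) else 0)
        - c0 * (if j = k then (1:ℝ) else 0) := by ring
  rw [ex]
  by_cases h1 : i = j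
  · rw [if_pos h1] at m1 ⊢
    linarith
  · by_cases h2 : i = k
    · rw [if_pos h2] at m2 ⊢
      linarith
    · by_cases h3 : j = k
      · rw [if_pos h3] at m3 ⊢
        linarith
      · rw [if_neg h1, if_neg h2, if_neg h3]
        unfold tw
        rw [if_pos ⟨h1, h2, h3⟩]
        have := tri_all n x hx δ p hp hδ hcon i j k h1 h2 h3
        rw [← hc0def] at this
        linarith

lemma sum_low (n : ℕ) (x : Fin n → X) (hx : ∀ l, ‖x l‖ ≤ 1) (δ p : ℝ) (hp : 0 ≤ p)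
    (hδ : δ ≤ 1)
    (hcon : ∀ m : Fin n,
      (n:ℝ) - δ < ‖∑ l : Fin n, (if l.val < m.val then x l else - x l)‖)
    (c0 : ℝ) (hc0def : c0 = 3 * (3 - δ) ^ p + (1 - δ) ^ p) (hc0 : 0 ≤ c0) :
    c0 * ((n:ℝ) ^ 3 - 3 * (n:ℝ) ^ 2) ≤ ∑ i, ∑ j, ∑ k, tw x p i j k := by
  rw [← count3 n c0]
  apply Finset.sum_le_sum
  intro i _
  apply Finset.sum_le_sum
  intro j _
  apply Finset.sum_le_sum
  intro k _
  exact term_low n x hx δ p hp hδ hcon c0 hc0def hc0 i j k

lemma bern3 (p δ a : ℝ) (hp : 1 ≤ p) (hδ0 : 0 < δ) (hδ1 : δ ≤ 1) (hpδ : p * δ = a) :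
    ((3:ℝ) ^ p * 3 + 1) * (1 - a) ≤ 3 * (3 - δ) ^ p + (1 - δ) ^ p := by
  have h3p : (0:ℝ) < (3:ℝ) ^ p := Real.rpow_pos_of_pos (by norm_num) _
  have ha0 : 0 < a := by rw [← hpδ]; positivity
  have hb1 : (3:ℝ) ^ p * (1 - a) ≤ (3 - δ) ^ p := by
    have e : (3 - δ) = 3 * (1 + (-(δ / 3))) := by ring
    rw [e, Real.mul_rpow (by norm_num) (by linarith)]
    apply mul_le_mul_of_nonneg_left _ h3p.le
    have hb := one_add_mul_self_le_rpow_one_add (s := -(δ / 3)) (by linarith) hp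
    have e3 : 1 + p * (-(δ / 3)) = 1 - a / 3 := by
      rw [← hpδ]; ring
    linarith
  have hb2 : 1 - a ≤ (1 - δ) ^ p := by
    have e : (1 - δ) = 1 + (-δ) := by ring
    rw [e]
    have hb := one_add_mul_self_le_rpow_one_add (s := -δ) (by linarith) hp
    have e3 : 1 + p * (-δ) = 1 - a := by
      rw [← hpδ]; ring
    linarith
  have ex : ((3:ℝ) ^ p * 3 + 1) * (1 - a) = 3 * ((3:ℝ) ^ p * (1 - a)) + (1 - a) := by ring
  rw [ex]
  linarith

lemma final_arith (M c0 a r n K' : ℝ) (hM : 0 < M) (ha0 : 0 < a) (hr2 : r = 1 - 2 * a)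
    (hKr : K' = r * M) (hn : 3 ≤ n) (hna : 3 < a * n) (hc0M : M * (1 - a) ≤ c0)
    (h6 : c0 * (n ^ 3 - 3 * n ^ 2) ≤ K' * n ^ 2 * n) : False := by
  have hn0 : 0 < n := by linarith
  have hn2 : 0 < n ^ 2 := by positivity
  have e1 : c0 * (n ^ 3 - 3 * n ^ 2) = n ^ 2 * (c0 * (n - 3)) := by ring
  have e2 : K' * n ^ 2 * n = n ^ 2 * (K' * n) := by ring
  rw [e1, e2] at h6
  have h8 : c0 * (n - 3) ≤ K' * n := le_of_mul_le_mul_left h6 hn2
  have hn3' : 0 ≤ n - 3 := by linarith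
  have h9 : M * (1 - a) * (n - 3) ≤ r * M * n := by
    calc M * (1 - a) * (n - 3) ≤ c0 * (n - 3) := mul_le_mul_of_nonneg_right hc0M hn3'
      _ ≤ K' * n := h8
      _ = r * M * n := by rw [hKr]
  have e3 : M * (1 - a) * (n - 3) = M * ((1 - a) * (n - 3)) := by ring
  have e4 : r * M * n = M * (r * n) := by ring
  rw [e3, e4] at h9
  have h10 : (1 - a) * (n - 3) ≤ r * n := le_of_mul_le_mul_left h9 hM
  rw [hr2] at h10
  have e5 : (1 - a) * (n - 3) = n - 3 - a * n + 3 * a := by ring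
  have e6 : (1 - 2 * a) * n = n - 2 * (a * n) := by ring
  rw [e5, e6] at h10
  linarith

theorem jconvex3 (p K : ℝ) (hp : 1 ≤ p) (hK : 0 ≤ K) (h : MarkovType X p K)
    (hlt : 12 * K ^ p < 3 ^ (p + 1) + 1) :
    ∃ n : ℕ, 2 ≤ n ∧ ∃ δ : ℝ, 0 < δ ∧ ∀ x : Fin n → X, (∀ i, ‖x i‖ ≤ 1) →
      ∃ k : Fin n, ‖∑ i : Fin n, (if i.val < k.val then x i else - x i)‖ ≤ (n:ℝ) - δ := by
  have hp0 : 0 < p := by linarith
  have h3p : (0:ℝ) < (3:ℝ) ^ p := Real.rpow_pos_of_pos (by norm_num) _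
  have hM3 : (3:ℝ) ^ (p + 1) = (3:ℝ) ^ p * 3 := Real.rpow_add_one (by norm_num) p
  obtain ⟨M, hMdef⟩ : ∃ M : ℝ, M = (3:ℝ) ^ p * 3 + 1 := ⟨_, rfl⟩
  have hM : 0 < M := by rw [hMdef]; linarith
  rw [hM3, ← hMdef] at hlt
  have hK0 : 0 ≤ K ^ p := Real.rpow_nonneg hK p
  obtain ⟨r, hr⟩ : ∃ r : ℝ, r = 12 * K ^ p / M := ⟨_, rfl⟩
  have hr1 : r < 1 := by rw [hr, div_lt_one hM]; exact hlt
  have hKr : 12 * K ^ p = r * M := by rw [hr]; field_simp
  obtain ⟨a, ha⟩ : ∃ a : ℝ, a = (1 - r) / 2 := ⟨_, rfl⟩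
  have ha0 : 0 < a := by rw [ha]; linarith
  have hr2 : r = 1 - 2 * a := by rw [ha]; ring
  have hra : a ≤ 1 / 2 := by
    have : 0 ≤ r := by rw [hr]; positivity
    rw [ha]; linarith
  obtain ⟨n, hn3, hn1⟩ : ∃ n : ℕ, 3 ≤ n ∧ (3:ℝ) / a < (n:ℝ) := by
    obtain ⟨n0, hn0⟩ := exists_nat_gt (3 / a)
    refine ⟨n0 + 3, by omega, ?_⟩
    push_cast
    linarith
  obtain ⟨δ, hδ⟩ : ∃ δ : ℝ, δ = a / p := ⟨_, rfl⟩
  have hδ0 : 0 < δ := by rw [hδ]; positivity
  have hpδ : p * δ = a := by rw [hδ]; field_simp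
  have hδ1 : δ ≤ 1 := by
    have h1 : δ * 1 ≤ δ * p := mul_le_mul_of_nonneg_left hp hδ0.le
    have h2 : δ * p = a := by rw [mul_comm]; exact hpδ
    linarith
  refine ⟨n, by omega, δ, hδ0, ?_⟩
  intro x hx
  by_contra hcon
  push Not at hcon
  have : Nonempty (Fin n) := ⟨⟨0, by omega⟩⟩
  have hk := key3 (ι := Fin n) p K h x
  rw [Fintype.card_fin] at hk
  obtain ⟨c0, hc0def⟩ : ∃ c0 : ℝ, c0 = 3 * (3 - δ) ^ p + (1 - δ) ^ p := ⟨_, rfl⟩
  have hc0 : 0 ≤ c0 := by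
    rw [hc0def]
    have q1 := Real.rpow_nonneg (by linarith : (0:ℝ) ≤ 3 - δ) p
    have q2 := Real.rpow_nonneg (by linarith : (0:ℝ) ≤ 1 - δ) p
    linarith
  have hlow := sum_low n x hx δ p hp0.le hδ1 hcon c0 hc0def hc0
  have hup : ∑ i, ‖x i‖ ^ p ≤ (n:ℝ) := by
    calc ∑ i, ‖x i‖ ^ p ≤ ∑ i : Fin n, (1:ℝ) :=
          Finset.sum_le_sum (fun i _ => Real.rpow_le_one (norm_nonneg _) (hx i) hp0.le)
      _ = (n:ℝ) := by simp
  have h5 : 12 * K ^ p * (n:ℝ) ^ 2 * ∑ i, ‖x i‖ ^ p ≤ 12 * K ^ p * (n:ℝ) ^ 2 * n := by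
    apply mul_le_mul_of_nonneg_left hup
    positivity
  have h6 : c0 * ((n:ℝ) ^ 3 - 3 * (n:ℝ) ^ 2) ≤ 12 * K ^ p * (n:ℝ) ^ 2 * n := by linarith
  have hc0M : M * (1 - a) ≤ c0 := by
    rw [hc0def, hMdef]
    exact bern3 p δ a hp hδ0 hδ1 hpδ
  have hna : 3 < a * (n:ℝ) := by
    rw [div_lt_iff₀ ha0] at hn1
    linarith
  have hn3r : (3:ℝ) ≤ (n:ℝ) := by exact_mod_cast hn3
  exact final_arith M c0 a r (n:ℝ) (12 * K ^ p) hM ha0 hr2 hKr hn3r hna hc0M h6

end Vale.Agent.Helper21.MarkovThree
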