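import Mathlib
import Vale.Agent.Helper21.MarkovDefs
import Vale.Agent.Helper21.MarkovSumDefs
import Vale.Agent.Helper21.MarkovLemmas

namespace Vale.Agent.Helper21.MarkovTransfer

open Finset Vale.Agent.Helper21.MarkovDefs Vale.Agent.Helper21.MarkovSumDefs
  Vale.Agent.Helper21.MarkovLemmas

set_option linter.unusedSectionVars false

lemma pow_entry_nonneg {S : Type} [Fintype S] [DecidableEq S] (c : RevChain S) (t : ℕ) :
    ∀ i j, 0 ≤ ((Matrix.of c.P) ^ t) i j := by
  induction t with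
  | zero =>
    intro i j
    simp only [pow_zero, Matrix.one_apply]
    split_ifs <;> norm_num
  | succ t ih =>
    intro i j
    rw [pow_succ, Matrix.mul_apply]
    apply Finset.sum_nonneg
    intro y _
    exact mul_nonneg (ih i y) (c.P_nonneg y j)

lemma pow_row_sum {S : Type} [Fintype S] [DecidableEq S] (c : RevChain S) (t : ℕ) :
    ∀ i, ∑ j, ((Matrix.of c.P) ^ t) i j = 1 := by
  induction t with
  | zero =>
    intro i
    simp [Matrix.one_apply]
  | succ t ih =>
    intro i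
    have h := pow_sum_succ c t i (fun _ => (1:ℝ))
    simp only [mul_one] at h
    rw [h]
    simp only [ih, mul_one]
    exact c.P_sum i

lemma total_mass {S : Type} [Fintype S] [DecidableEq S] (c : RevChain S) (t : ℕ) :
    ∑ i, ∑ j, c.pi i * ((Matrix.of c.P) ^ t) i j = 1 := by
  have : ∀ i, ∑ j, c.pi i * ((Matrix.of c.P) ^ t) i j = c.pi i := by
    intro i
    rw [← Finset.mul_sum, pow_row_sum, mul_one]
  simp only [this]
  exact c.pi_sum

lemma patSum_eq {n : ℕ} (k : Fin n) (a : Fin n → ℝ) :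
    patSum k a = ∑ l : Fin n, (if l.val < k.val then (1:ℝ) else -1) * a l := by
  unfold patSum
  apply Finset.sum_congr rfl
  intro l _
  split_ifs <;> simp

lemma sumNorm_nonneg {n : ℕ} (a : Fin n → ℝ) : 0 ≤ sumNorm a := by
  unfold sumNorm
  exact Real.iSup_nonneg (fun k => abs_nonneg _)

lemma le_sumNorm {n : ℕ} (k : Fin n) (a : Fin n → ℝ) : |patSum k a| ≤ sumNorm a := by
  unfold sumNorm
  exact le_ciSup (f := fun k : Fin n => |patSum k a|) (Set.finite_range _).bddAbove k

lemma sumNorm_le {n : ℕ} (a : Fin n → ℝ) (B : ℝ) (hB : 0 ≤ B) (h : ∀ k, |patSum k a| ≤ B) :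
    sumNorm a ≤ B := by
  unfold sumNorm
  exact Real.iSup_le h hB


variable {X : Type} [NormedAddCommGroup X] [NormedSpace ℝ X]

/-- sign of the James pattern `k` at coordinate `l` -/
def psign {n : ℕ} (k l : Fin n) : ℝ := if l.val < k.val then 1 else -1

lemma psign_sq {n : ℕ} (k l : Fin n) : psign k l * psign k l = 1 := by
  unfold psign
  split_ifs <;> norm_num

lemma abs_psign {n : ℕ} (k l : Fin n) : |psign k l| = 1 := by
  unfold psign
  split_ifs <;> norm_num

lemma james_functional {n : ℕ} (x : Fin n → X) (hx : ∀ l, ‖x l‖ ≤ 1) (δ : ℝ) (hδ1 : δ ≤ 1)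
    (k : Fin n)
    (hJ : (n:ℝ) - δ < ‖∑ l : Fin n, (if l.val < k.val then x l else - x l)‖) :
    ∃ φ : StrongDual ℝ X, ‖φ‖ = 1 ∧ ∀ l, 1 - δ < psign k l * φ (x l) ∧ psign k l * φ (x l) ≤ 1 := by
  have hn : (1:ℝ) ≤ (n:ℝ) := by
    have : 1 ≤ n := by
      have := k.isLt
      omega
    exact_mod_cast this
  set v := ∑ l : Fin n, (if l.val < k.val then x l else - x l) with hv
  have hvpos : 0 < ‖v‖ := by linarith
  obtain ⟨φ, hφ1, hφv⟩ := exists_dual_vector ℝ v hvpos.ne'
  refine ⟨φ, hφ1, ?_⟩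
  have hle : ∀ l, psign k l * φ (x l) ≤ 1 := by
    intro l
    have h1 : |φ (x l)| ≤ 1 := by
      have := φ.le_opNorm (x l)
      rw [hφ1, one_mul, Real.norm_eq_abs] at this
      exact le_trans this (hx l)
    calc psign k l * φ (x l) ≤ |psign k l * φ (x l)| := le_abs_self _
      _ = |φ (x l)| := by rw [abs_mul, abs_psign, one_mul]
      _ ≤ 1 := h1
  have hsum : ∑ l : Fin n, psign k l * φ (x l) = ‖v‖ := by
    have : (φ v : ℝ) = ∑ l : Fin n, psign k l * φ (x l) := by
      rw [hv, map_sum]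
      apply Finset.sum_congr rfl
      intro l _
      unfold psign
      split_ifs
      · rw [one_mul]
      · rw [map_neg]; ring
    rw [← this]
    exact_mod_cast hφv
  intro l
  refine ⟨?_, hle l⟩
  have h2 : ∑ l' : Fin n, psign k l' * φ (x l')
      = psign k l * φ (x l) + ∑ l' ∈ Finset.univ.erase l, psign k l' * φ (x l') :=
    (Finset.add_sum_erase Finset.univ (fun l' => psign k l' * φ (x l')) (Finset.mem_univ l)).symm
  have h3 : ∑ l' ∈ Finset.univ.erase l, psign k l' * φ (x l') ≤ (n:ℝ) - 1 := by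
    calc ∑ l' ∈ Finset.univ.erase l, psign k l' * φ (x l')
        ≤ ∑ l' ∈ Finset.univ.erase l, (1:ℝ) := Finset.sum_le_sum (fun l' _ => hle l')
      _ = ((Finset.univ.erase l).card : ℝ) := by simp
      _ = (n:ℝ) - 1 := by
          rw [Finset.card_erase_of_mem (Finset.mem_univ l), Finset.card_univ, Fintype.card_fin]
          have : 1 ≤ n := by
            have := k.isLt
            omega
          push_cast [Nat.cast_sub this]
          ring
  linarith

lemma james_lower {n : ℕ} (x : Fin n → X) (hx : ∀ l, ‖x l‖ ≤ 1) (δ : ℝ) (hδ0 : 0 ≤ δ)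
    (hδ1 : δ ≤ 1)
    (hJ : ∀ k : Fin n, (n:ℝ) - δ < ‖∑ l : Fin n, (if l.val < k.val then x l else - x l)‖)
    (a : Fin n → ℝ) :
    sumNorm a ≤ ‖∑ l, a l • x l‖ + δ * ∑ l, |a l| := by
  apply sumNorm_le
  · have : 0 ≤ ∑ l, |a l| := Finset.sum_nonneg (fun l _ => abs_nonneg _)
    positivity
  intro k
  obtain ⟨φ, hφ1, hφ⟩ := james_functional x hx δ hδ1 k (hJ k)
  have e1 : φ (∑ l, a l • x l) = ∑ l, a l * psign k l * (psign k l * φ (x l)) := by
    rw [map_sum]
    apply Finset.sum_congr rfl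
    intro l _
    rw [map_smul, smul_eq_mul]
    have := psign_sq k l
    calc a l * φ (x l) = a l * (psign k l * psign k l) * φ (x l) := by rw [this, mul_one]
      _ = a l * psign k l * (psign k l * φ (x l)) := by ring
  have e2 : patSum k a = ∑ l, a l * psign k l := by
    rw [patSum_eq]
    apply Finset.sum_congr rfl
    intro l _
    unfold psign
    ring
  have e3 : |patSum k a - φ (∑ l, a l • x l)| ≤ δ * ∑ l, |a l| := by
    rw [e1, e2, ← Finset.sum_sub_distrib, Finset.mul_sum]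
    calc |∑ l, (a l * psign k l - a l * psign k l * (psign k l * φ (x l)))|
        ≤ ∑ l, |a l * psign k l - a l * psign k l * (psign k l * φ (x l))| :=
          Finset.abs_sum_le_sum_abs _ _
      _ ≤ ∑ l, δ * |a l| := by
          apply Finset.sum_le_sum
          intro l _
          have h1 : a l * psign k l - a l * psign k l * (psign k l * φ (x l))
              = a l * psign k l * (1 - psign k l * φ (x l)) := by ring
          rw [h1, abs_mul, abs_mul, abs_psign, mul_one]
          have h2 : |1 - psign k l * φ (x l)| ≤ δ := by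
            rw [abs_le]
            constructor <;> linarith [(hφ l).1, (hφ l).2]
          calc |a l| * |1 - psign k l * φ (x l)| ≤ |a l| * δ :=
                mul_le_mul_of_nonneg_left h2 (abs_nonneg _)
            _ = δ * |a l| := by ring
  have e4 : |φ (∑ l, a l • x l)| ≤ ‖∑ l, a l • x l‖ := by
    have := φ.le_opNorm (∑ l, a l • x l)
    rw [hφ1, one_mul, Real.norm_eq_abs] at this
    exact this
  calc |patSum k a| = |(patSum k a - φ (∑ l, a l • x l)) + φ (∑ l, a l • x l)| := by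
        congr 1; ring
    _ ≤ |patSum k a - φ (∑ l, a l • x l)| + |φ (∑ l, a l • x l)| := abs_add_le _ _
    _ ≤ δ * ∑ l, |a l| + ‖∑ l, a l • x l‖ := add_le_add e3 e4
    _ = ‖∑ l, a l • x l‖ + δ * ∑ l, |a l| := by ring


lemma rpow_add_le (u ε p : ℝ) (hu : 0 ≤ u) (hε : 0 ≤ ε) (hp : 1 ≤ p) :
    (u + ε) ^ p ≤ u ^ p + p * ε * (u + ε) ^ (p - 1) := by
  have hp0 : p ≠ 0 := by linarith
  rcases eq_or_lt_of_le (add_nonneg hu hε) with h0 | hpos
  · have hu0 : u = 0 := by linarith
    have hε0 : ε = 0 := by linarith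
    rw [hu0, hε0]
    simp [Real.zero_rpow hp0]
  · set w := u + ε with hw
    have hs : (-1:ℝ) ≤ -(ε / w) := by
      rw [neg_le_neg_iff, div_le_one hpos]
      linarith
    have hb := one_add_mul_self_le_rpow_one_add (s := -(ε / w)) hs hp
    have e1 : 1 + -(ε / w) = u / w := by
      field_simp
      rw [hw]; ring
    rw [e1, Real.div_rpow hu hpos.le] at hb
    have hwp : 0 < w ^ p := Real.rpow_pos_of_pos hpos p
    have e2 : w ^ (p - 1) = w ^ p / w := Real.rpow_sub_one hpos.ne' p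
    rw [e2]
    have h3 : (1 + p * -(ε / w)) * w ^ p ≤ u ^ p := by
      calc (1 + p * -(ε / w)) * w ^ p ≤ (u ^ p / w ^ p) * w ^ p :=
            mul_le_mul_of_nonneg_right hb hwp.le
        _ = u ^ p := by field_simp
    have h4 : (1 + p * -(ε / w)) * w ^ p = w ^ p - p * ε * (w ^ p / w) := by
      field_simp
      ring
    linarith

theorem transfer (p K : ℝ) (hp : 1 ≤ p) (hK : 0 ≤ K) (h : MarkovType X p K) (n : ℕ)
    (S : Type) [Fintype S] [DecidableEq S] (c : RevChain S) (f : S → Fin n → ℝ) (t : ℕ)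
    (ht : 1 ≤ t) (hviol : K ^ p * (t : ℝ) * l1Disp c f p < sumDisp c f p t) :
    ∃ δ : ℝ, 0 < δ ∧ ∀ x : Fin n → X, (∀ l, ‖x l‖ ≤ 1) →
      ∃ k : Fin n, ‖∑ l : Fin n, (if l.val < k.val then x l else - x l)‖ ≤ (n:ℝ) - δ := by
  have hp0 : 0 < p := by linarith
  have hKp : 0 ≤ K ^ p := Real.rpow_nonneg hK p
  obtain ⟨M, hM⟩ : ∃ M : ℝ, M = (∑ i, ∑ j, ∑ l, |f i l - f j l|) + 1 := ⟨_, rfl⟩
  have hL1 : ∀ i j, ∑ l, |f i l - f j l| ≤ M := by
    intro i j
    have h1 : ∑ l, |f i l - f j l| ≤ ∑ j', ∑ l, |f i l - f j' l| :=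
      Finset.single_le_sum (f := fun j' => ∑ l, |f i l - f j' l|)
        (fun j' _ => Finset.sum_nonneg (fun l _ => abs_nonneg _)) (Finset.mem_univ j)
    have h2 : ∑ j', ∑ l, |f i l - f j' l| ≤ ∑ i', ∑ j', ∑ l, |f i' l - f j' l| :=
      Finset.single_le_sum (f := fun i' => ∑ j', ∑ l, |f i' l - f j' l|)
        (fun i' _ => Finset.sum_nonneg (fun j' _ =>
          Finset.sum_nonneg (fun l _ => abs_nonneg _))) (Finset.mem_univ i)
    linarith
  have hM1 : 1 ≤ M := by
    rw [hM]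
    have : 0 ≤ ∑ i, ∑ j, ∑ l, |f i l - f j l| :=
      Finset.sum_nonneg (fun i _ => Finset.sum_nonneg (fun j _ =>
        Finset.sum_nonneg (fun l _ => abs_nonneg _)))
    linarith
  have hM0 : 0 < M := by linarith
  obtain ⟨C, hC⟩ : ∃ C : ℝ, C = M * p * (2 * M) ^ (p - 1) := ⟨_, rfl⟩
  have hCpos : 0 < C := by
    rw [hC]
    have : 0 < (2 * M) ^ (p - 1) := Real.rpow_pos_of_pos (by linarith) _
    positivity
  obtain ⟨gap, hgap⟩ : ∃ gap : ℝ, gap = sumDisp c f p t - K ^ p * (t : ℝ) * l1Disp c f p :=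
    ⟨_, rfl⟩
  have hgap0 : 0 < gap := by rw [hgap]; linarith
  refine ⟨min 1 (gap / (2 * C)), lt_min one_pos (by positivity), ?_⟩
  intro x hx
  by_contra hcon
  push Not at hcon
  obtain ⟨δ, hδ⟩ : ∃ δ : ℝ, δ = min 1 (gap / (2 * C)) := ⟨_, rfl⟩
  rw [← hδ] at hcon
  have hδ0 : 0 < δ := by rw [hδ]; exact lt_min one_pos (by positivity)
  have hδ1 : δ ≤ 1 := by rw [hδ]; exact min_le_left _ _
  have hδC : δ * C ≤ gap / 2 := by
    have : δ ≤ gap / (2 * C) := by rw [hδ]; exact min_le_right _ _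
    calc δ * C ≤ gap / (2 * C) * C := mul_le_mul_of_nonneg_right this hCpos.le
      _ = gap / 2 := by field_simp
  -- the vector valued map
  obtain ⟨g, hg⟩ : ∃ g : S → X, g = fun s => ∑ l, f s l • x l := ⟨_, rfl⟩
  have hgd : ∀ i j, g i - g j = ∑ l, (f i l - f j l) • x l := by
    intro i j
    rw [hg]
    simp only
    rw [← Finset.sum_sub_distrib]
    apply Finset.sum_congr rfl
    intro l _
    rw [sub_smul]
  have key2 : ∀ i j, ‖g i - g j‖ ≤ ∑ l, |f i l - f j l| := by
    intro i j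
    rw [hgd]
    calc ‖∑ l, (f i l - f j l) • x l‖ ≤ ∑ l, ‖(f i l - f j l) • x l‖ := norm_sum_le _ _
      _ ≤ ∑ l, |f i l - f j l| := by
          apply Finset.sum_le_sum
          intro l _
          rw [norm_smul, Real.norm_eq_abs]
          calc |f i l - f j l| * ‖x l‖ ≤ |f i l - f j l| * 1 :=
                mul_le_mul_of_nonneg_left (hx l) (abs_nonneg _)
            _ = |f i l - f j l| := mul_one _
  have key1 : ∀ i j, sumNorm (fun l => f i l - f j l)
      ≤ ‖g i - g j‖ + δ * ∑ l, |f i l - f j l| := by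
    intro i j
    rw [hgd]
    exact james_lower x hx δ hδ0.le hδ1 hcon (fun l => f i l - f j l)
  have key3 : ∀ i j, sumNorm (fun l => f i l - f j l) ^ p ≤ ‖g i - g j‖ ^ p + δ * C := by
    intro i j
    have hu0 : 0 ≤ ‖g i - g j‖ := norm_nonneg _
    have hL0 : 0 ≤ ∑ l, |f i l - f j l| := Finset.sum_nonneg (fun l _ => abs_nonneg _)
    have hε0 : 0 ≤ δ * ∑ l, |f i l - f j l| := by positivity
    have hεM : δ * ∑ l, |f i l - f j l| ≤ δ * M :=
      mul_le_mul_of_nonneg_left (hL1 i j) hδ0.le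
    have h1 : sumNorm (fun l => f i l - f j l) ^ p
        ≤ (‖g i - g j‖ + δ * ∑ l, |f i l - f j l|) ^ p :=
      Real.rpow_le_rpow (sumNorm_nonneg _) (key1 i j) hp0.le
    have h2 := rpow_add_le ‖g i - g j‖ (δ * ∑ l, |f i l - f j l|) p hu0 hε0 hp
    have h3 : (‖g i - g j‖ + δ * ∑ l, |f i l - f j l|) ^ (p - 1) ≤ (2 * M) ^ (p - 1) := by
      apply Real.rpow_le_rpow (by positivity) _ (by linarith)
      have := key2 i j
      have := hL1 i j
      nlinarith
    have h4 : p * (δ * ∑ l, |f i l - f j l|) * (‖g i - g j‖ + δ * ∑ l, |f i l - f j l|) ^ (p - 1)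
        ≤ p * (δ * M) * (2 * M) ^ (p - 1) := by
      apply mul_le_mul _ h3 (Real.rpow_nonneg (by positivity) _) (by positivity)
      exact mul_le_mul_of_nonneg_left hεM hp0.le
    have h5 : p * (δ * M) * (2 * M) ^ (p - 1) = δ * C := by rw [hC]; ring
    linarith
  -- sum up
  have hw : ∀ i j, 0 ≤ c.pi i * ((Matrix.of c.P) ^ t) i j := fun i j =>
    mul_nonneg (c.pi_nonneg i) (pow_entry_nonneg c t i j)
  have s1 : sumDisp c f p t ≤ displacement c g p t + δ * C := by
    unfold sumDisp displacement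
    have : ∑ i, ∑ j, c.pi i * ((Matrix.of c.P) ^ t) i j * (‖g i - g j‖ ^ p + δ * C)
        = (∑ i, ∑ j, c.pi i * ((Matrix.of c.P) ^ t) i j * ‖g i - g j‖ ^ p) + δ * C := by
      simp only [mul_add, Finset.sum_add_distrib]
      congr 1
      simp only [← Finset.sum_mul]
      rw [total_mass, one_mul]
    rw [← this]
    apply Finset.sum_le_sum
    intro i _
    apply Finset.sum_le_sum
    intro j _
    exact mul_le_mul_of_nonneg_left (key3 i j) (hw i j)
  have s2 : displacement c g p 1 ≤ l1Disp c f p := by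
    unfold displacement l1Disp
    apply Finset.sum_le_sum
    intro i _
    apply Finset.sum_le_sum
    intro j _
    rw [pow_one, Matrix.of_apply]
    apply mul_le_mul_of_nonneg_left _ (mul_nonneg (c.pi_nonneg i) (c.P_nonneg i j))
    exact Real.rpow_le_rpow (norm_nonneg _) (key2 i j) hp0.le
  have s3 := h S c g t ht
  have s4 : K ^ p * (t : ℝ) * displacement c g p 1 ≤ K ^ p * (t : ℝ) * l1Disp c f p :=
    mul_le_mul_of_nonneg_left s2 (by positivity)
  linarith


/-- the sign coordinates map on the cube -/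
def sgnVec (n : ℕ) (x : Fin n → Bool) (l : Fin n) : ℝ := sgn (x l)

lemma sgnVec_flip (n : ℕ) (x : Fin n → Bool) (i l : Fin n) :
    sgnVec n x l - sgnVec n (MarkovLemmas.flip i x) l = if l = i then 2 * sgn (x i) else 0 := by
  unfold sgnVec
  by_cases h : l = i
  · subst h
    rw [if_pos rfl, flip_same, sgn_not]
    ring
  · rw [if_neg h, flip_ne _ _ _ h, sub_self]

lemma sgnVec_flip2 (n : ℕ) (x : Fin n → Bool) (i j l : Fin n) (hij : i ≠ j) :
    sgnVec n x l - sgnVec n (MarkovLemmas.flip j (MarkovLemmas.flip i x)) l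
      = if l = i then 2 * sgn (x i) else if l = j then 2 * sgn (x j) else 0 := by
  unfold sgnVec
  by_cases h : l = i
  · subst h
    rw [if_pos rfl, flip_ne _ _ _ hij, flip_same, sgn_not]
    ring
  · rw [if_neg h]
    by_cases h' : l = j
    · subst h'
      rw [if_pos rfl, flip_same, flip_ne _ _ _ h, sgn_not]
      ring
    · rw [if_neg h', flip_ne _ _ _ h', flip_ne _ _ _ h, sub_self]

lemma abs_sgn_two (b : Bool) : |2 * sgn b| = 2 := by
  rw [abs_mul, abs_sgn]
  norm_num

lemma l1_flip (n : ℕ) (x : Fin n → Bool) (i : Fin n) :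
    ∑ l, |sgnVec n x l - sgnVec n (MarkovLemmas.flip i x) l| = 2 := by
  simp only [sgnVec_flip]
  rw [Finset.sum_eq_single i]
  · rw [if_pos rfl, abs_sgn_two]
  · intro l _ hl
    rw [if_neg hl, abs_zero]
  · intro h
    exact absurd (Finset.mem_univ i) h

lemma patSum_two {n : ℕ} (k i j : Fin n) (hij : i ≠ j) (u v : ℝ) :
    patSum k (fun l => if l = i then u else if l = j then v else 0)
      = psign k i * u + psign k j * v := by
  rw [patSum_eq]
  rw [Finset.sum_eq_add i j hij]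
  · rw [if_pos rfl, if_neg (Ne.symm hij), if_pos rfl]
    rfl
  · intro l _ hl
    rw [if_neg hl.1, if_neg hl.2, mul_zero]
  · intro h
    exact absurd (Finset.mem_univ i) h
  · intro h
    exact absurd (Finset.mem_univ j) h

lemma sumNorm_two_lt {n : ℕ} (i j : Fin n) (hij : i.val < j.val) (b b' : Bool) :
    4 ≤ sumNorm (fun l => if l = i then 2 * sgn b else if l = j then 2 * sgn b' else 0) := by
  have hne : i ≠ j := fun h => by rw [h] at hij; exact lt_irrefl _ hij
  have hn : 0 < n := by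
    have := j.isLt
    omega
  by_cases hb : b = b'
  · subst hb
    have h1 := le_sumNorm (⟨0, hn⟩ : Fin n)
      (fun l => if l = i then 2 * sgn b else if l = j then 2 * sgn b else 0)
    rw [patSum_two _ i j hne] at h1
    have e1 : psign (⟨0, hn⟩ : Fin n) i = -1 := by simp [psign]
    have e2 : psign (⟨0, hn⟩ : Fin n) j = -1 := by simp [psign]
    rw [e1, e2] at h1
    have : |(-1:ℝ) * (2 * sgn b) + -1 * (2 * sgn b)| = 4 := by
      cases b <;> simp [sgn] <;> norm_num
    linarith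
  · have h1 := le_sumNorm j
      (fun l => if l = i then 2 * sgn b else if l = j then 2 * sgn b' else 0)
    rw [patSum_two _ i j hne] at h1
    have e1 : psign j i = 1 := by simp [psign, hij]
    have e2 : psign j j = -1 := by simp [psign]
    rw [e1, e2] at h1
    have : |(1:ℝ) * (2 * sgn b) + -1 * (2 * sgn b')| = 4 := by
      cases b <;> cases b' <;> simp [sgn] at hb ⊢ <;> norm_num
    linarith

lemma sumNorm_two {n : ℕ} (i j : Fin n) (hij : i ≠ j) (b b' : Bool) :
    4 ≤ sumNorm (fun l => if l = i then 2 * sgn b else if l = j then 2 * sgn b' else 0) := by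
  rcases Nat.lt_or_gt_of_ne (fun h => hij (Fin.ext h)) with hlt | hgt
  · exact sumNorm_two_lt i j hlt b b'
  · have h := sumNorm_two_lt j i hgt b' b
    have e : (fun l => if l = i then 2 * sgn b else if l = j then 2 * sgn b' else 0)
        = (fun l => if l = j then 2 * sgn b' else if l = i then 2 * sgn b else 0) := by
      funext l
      by_cases h1 : l = i
      · subst h1
        rw [if_pos rfl, if_neg hij, if_pos rfl]
      · rw [if_neg h1]
        by_cases h2 : l = j
        · rw [if_pos h2, if_pos h2]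
        · rw [if_neg h2, if_neg h2, if_neg h1]
    rw [e]
    exact h


lemma l1Disp_cube (n : ℕ) [Nonempty (Fin n)] (p : ℝ) :
    l1Disp (cubeChain (Fin n)) (sgnVec n) p = (2:ℝ) ^ p := by
  unfold l1Disp
  have h1 : ∀ x : Fin n → Bool,
      ∑ y, (cubeChain (Fin n)).pi x * (cubeChain (Fin n)).P x y
        * (∑ l, |sgnVec n x l - sgnVec n y l|) ^ p
      = (cubeChain (Fin n)).pi x * (2:ℝ) ^ p := by
    intro x
    have h2 : ∀ y, (cubeChain (Fin n)).pi x * (cubeChain (Fin n)).P x y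
        * (∑ l, |sgnVec n x l - sgnVec n y l|) ^ p
        = (cubeChain (Fin n)).pi x * ((cubeChain (Fin n)).P x y
          * (∑ l, |sgnVec n x l - sgnVec n y l|) ^ p) := fun y => by ring
    simp only [h2]
    rw [← Finset.mul_sum, cube_step x (fun y => (∑ l, |sgnVec n x l - sgnVec n y l|) ^ p)]
    simp only [l1_flip]
    rw [Finset.sum_const, Finset.card_univ, nsmul_eq_mul]
    have hc : (0:ℝ) < (Fintype.card (Fin n) : ℝ) := by
      have := Fintype.card_pos (α := Fin n)
      exact_mod_cast this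
    field_simp
  simp only [h1]
  rw [← Finset.sum_mul, (cubeChain (Fin n)).pi_sum, one_mul]

lemma sumDisp_cube_ge (n : ℕ) [Nonempty (Fin n)] (p : ℝ) (hp : 0 < p) :
    (1 - 1 / (n:ℝ)) * (4:ℝ) ^ p ≤ sumDisp (cubeChain (Fin n)) (sgnVec n) p 2 := by
  unfold sumDisp
  have hn : (0:ℝ) < (n:ℝ) := by
    have := Fintype.card_pos (α := Fin n)
    rw [Fintype.card_fin] at this
    exact_mod_cast this
  have h1 : ∀ x : Fin n → Bool,
      (cubeChain (Fin n)).pi x * ((1 - 1 / (n:ℝ)) * (4:ℝ) ^ p)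
      ≤ ∑ z, (cubeChain (Fin n)).pi x * ((Matrix.of (cubeChain (Fin n)).P) ^ 2) x z
        * sumNorm (fun l => sgnVec n x l - sgnVec n z l) ^ p := by
    intro x
    have h2 : ∀ z, (cubeChain (Fin n)).pi x * ((Matrix.of (cubeChain (Fin n)).P) ^ 2) x z
        * sumNorm (fun l => sgnVec n x l - sgnVec n z l) ^ p
        = (cubeChain (Fin n)).pi x * (((Matrix.of (cubeChain (Fin n)).P) ^ 2) x z
          * sumNorm (fun l => sgnVec n x l - sgnVec n z l) ^ p) := fun z => by ring
    simp only [h2]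
    rw [← Finset.mul_sum,
      cube_pow_two x (fun z => sumNorm (fun l => sgnVec n x l - sgnVec n z l) ^ p)]
    apply mul_le_mul_of_nonneg_left _ ((cubeChain (Fin n)).pi_nonneg x)
    rw [Fintype.card_fin, le_div_iff₀ (by positivity)]
    have h3 : ∑ i : Fin n, ∑ j : Fin n, (if i = j then 0 else (4:ℝ) ^ p)
        ≤ ∑ i : Fin n, ∑ j : Fin n,
          sumNorm (fun l => sgnVec n x l
            - sgnVec n (MarkovLemmas.flip j (MarkovLemmas.flip i x)) l) ^ p := by
      apply Finset.sum_le_sum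
      intro i _
      apply Finset.sum_le_sum
      intro j _
      by_cases hij : i = j
      · rw [if_pos hij]
        exact Real.rpow_nonneg (sumNorm_nonneg _) _
      · rw [if_neg hij]
        apply Real.rpow_le_rpow (by norm_num) _ hp.le
        have e : (fun l => sgnVec n x l
            - sgnVec n (MarkovLemmas.flip j (MarkovLemmas.flip i x)) l)
            = (fun l => if l = i then 2 * sgn (x i) else if l = j then 2 * sgn (x j) else 0) := by
          funext l
          exact sgnVec_flip2 n x i j l hij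
        rw [e]
        exact sumNorm_two i j hij (x i) (x j)
    rw [sum_off_diag] at h3
    have e2 : (1 - 1 / (n:ℝ)) * (4:ℝ) ^ p * (n:ℝ) ^ 2 = ((n:ℝ) ^ 2 - n) * (4:ℝ) ^ p := by
      field_simp
    rw [e2]
    exact h3
  calc (1 - 1 / (n:ℝ)) * (4:ℝ) ^ p
      = ∑ x : Fin n → Bool, (cubeChain (Fin n)).pi x * ((1 - 1 / (n:ℝ)) * (4:ℝ) ^ p) := by
        rw [← Finset.sum_mul, (cubeChain (Fin n)).pi_sum, one_mul]
    _ ≤ _ := Finset.sum_le_sum (fun x _ => h1 x)

theorem violation (p K : ℝ) (hp0 : 0 < p) (hK : 0 ≤ K) (hlt : K ^ p < 2 ^ (p - 1)) :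
    ∃ n : ℕ, 2 ≤ n ∧ ∃ (c : RevChain (Fin n → Bool)) (f : (Fin n → Bool) → Fin n → ℝ),
      K ^ p * ((2:ℕ):ℝ) * l1Disp c f p < sumDisp c f p 2 := by
  have h2p : (0:ℝ) < (2:ℝ) ^ (p - 1) := Real.rpow_pos_of_pos (by norm_num) _
  have hKp : 0 ≤ K ^ p := Real.rpow_nonneg hK p
  obtain ⟨r, hr⟩ : ∃ r : ℝ, r = K ^ p / 2 ^ (p - 1) := ⟨_, rfl⟩
  have hr0 : 0 ≤ r := by rw [hr]; exact div_nonneg hKp h2p.le
  have hr1 : r < 1 := by rw [hr, div_lt_one h2p]; exact hlt
  obtain ⟨n, hn2, hn1⟩ : ∃ n : ℕ, 2 ≤ n ∧ (1:ℝ) / (1 - r) < (n:ℝ) := by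
    obtain ⟨n0, hn0⟩ := exists_nat_gt (1 / (1 - r))
    refine ⟨n0 + 2, by omega, ?_⟩
    push_cast
    linarith
  have : Nonempty (Fin n) := ⟨⟨0, by omega⟩⟩
  refine ⟨n, hn2, cubeChain (Fin n), sgnVec n, ?_⟩
  rw [l1Disp_cube]
  refine lt_of_lt_of_le ?_ (sumDisp_cube_ge n p hp0)
  have hnpos : (0:ℝ) < (n:ℝ) := by
    have : (2:ℝ) ≤ (n:ℝ) := by exact_mod_cast hn2
    linarith
  have h1r : 0 < 1 - r := by linarith
  have hrn : r < 1 - 1 / (n:ℝ) := by
    rw [div_lt_iff₀ h1r] at hn1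
    have : 1 / (n:ℝ) < 1 - r := by
      rw [div_lt_iff₀ hnpos]
      linarith
    linarith
  have e5 : (2:ℝ) ^ p = 2 * 2 ^ (p - 1) := by
    rw [Real.rpow_sub_one (by norm_num)]
    ring
  have e4 : (4:ℝ) ^ p = (2:ℝ) ^ p * (2:ℝ) ^ p := by
    rw [← Real.mul_rpow (by norm_num) (by norm_num)]
    norm_num
  have hKr : K ^ p = r * 2 ^ (p - 1) := by
    rw [hr]; field_simp
  rw [e4, hKr, e5]
  have hpos : (0:ℝ) < 2 * 2 ^ (p - 1) * (2 * 2 ^ (p - 1)) := by positivity
  have : r * 2 ^ (p - 1) * ((2:ℕ):ℝ) * (2 * 2 ^ (p - 1))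
      = r * (2 * 2 ^ (p - 1) * (2 * 2 ^ (p - 1))) := by push_cast; ring
  rw [this]
  exact mul_lt_mul_of_pos_right hrn hpos

end Vale.Agent.Helper21.MarkovTransfer
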