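import Vale.Agent.Helper10.PMDefs

/-!
# Two-way clocks: the invariant of the master automaton and the first counting identity
(problem P329, task T7)
-/

namespace Vale.Agent.Helper21

open Vale.Agent.Helper10

variable {α : Type} {m : ℕ}

theorem invK_base : InvK (mBase m) := by
  constructor
  · intro j hj
    exact absurd rfl hj
  · intro h0
    exact absurd rfl h0

theorem val_succ' [NeZero m] (k : ZMod m) (h : k + 1 ≠ 0) : (k + 1).val = k.val + 1 := by
  have h1 : k.val < m := ZMod.val_lt k
  have h2 : k.val + 1 ≠ m := by
    intro e
    apply h
    have : (k + 1 : ZMod m) = ((k.val + 1 : ℕ) : ZMod m) := by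
      push_cast
      rw [ZMod.natCast_zmod_val]
    rw [this, e, ZMod.natCast_self]
  rw [ZMod.val_add, ZMod.val_one_eq_one_mod, Nat.add_mod_mod, Nat.mod_eq_of_lt (by omega)]

theorem val_pred' [NeZero m] (k : ZMod m) (h : k ≠ 0) : (k - 1).val + 1 = k.val := by
  have h1 : (k - 1) + 1 ≠ 0 := by
    rw [sub_add_cancel]
    exact h
  have h2 := val_succ' (k - 1) h1
  rw [sub_add_cancel] at h2
  exact h2.symm

theorem eq_of_val_eq [NeZero m] {a b : ZMod m} (h : a.val = b.val) : a = b :=
  ZMod.val_injective m h

theorem invK_step [NeZero m] (up dn tp : α → Bool) (q : ZMod m × (ZMod m → Option Bool))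
    (a : α) (h : InvK q) : InvK (mStep up dn tp q a) := by
  obtain ⟨c, L⟩ := q
  obtain ⟨hA, hB⟩ := h
  simp only at hA hB
  by_cases hu : up a = true
  · by_cases h1 : c + 1 = 0
    · rw [mStep_up_arr up dn tp (c, L) a hu h1]
      exact invK_base
    · rw [mStep_up up dn tp (c, L) a hu h1]
      have hv : (c + 1).val = c.val + 1 := val_succ' c h1
      have hne : c ≠ c + 1 := by
        intro e
        have := congrArg ZMod.val e
        rw [hv] at this
        omega
      constructor
      · intro j hj
        show j.val < (c + 1).val
        rw [hv]
        simp only at hj
        by_cases hj1 : j = c + 1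
        · rw [hj1, Function.update_self] at hj
          exact absurd rfl hj
        · rw [Function.update_of_ne hj1] at hj
          by_cases hj2 : j = c
          · rw [hj2]
            omega
          · rw [Function.update_of_ne hj2] at hj
            have := hA j hj
            omega
      · intro h0 j hj
        simp only at h0 hj ⊢
        rw [hv] at hj
        have h01 : (0 : ZMod m) ≠ c + 1 := fun e => h1 e.symm
        rw [Function.update_of_ne h01] at h0
        by_cases hj2 : j = c
        · rw [hj2, Function.update_of_ne hne, Function.update_self]
          exact Option.some_ne_none _
        · have hjv : j.val ≠ c.val := fun e => hj2 (eq_of_val_eq e)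
          have hj1 : j ≠ c + 1 := by
            intro e
            have := congrArg ZMod.val e
            rw [hv] at this
            omega
          rw [Function.update_of_ne hj1, Function.update_of_ne hj2]
          by_cases h0c : (0 : ZMod m) = c
          · exfalso
            have : c.val = 0 := by rw [← h0c, ZMod.val_zero]
            omega
          · rw [Function.update_of_ne h0c] at h0
            exact hB h0 j (by omega)
  · have hu' : up a = false := by simpa using hu
    by_cases hd : dn a = true
    · by_cases h1 : c - 1 = 0
      · rw [mStep_dn_arr up dn tp (c, L) a hu' hd h1]
        exact invK_base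
      · rw [mStep_dn up dn tp (c, L) a hu' hd h1]
        by_cases hc : c = 0
        · -- the memory is empty
          have hL : ∀ j, L j = none := by
            intro j
            by_contra hj
            have := hA j hj
            rw [hc, ZMod.val_zero] at this
            omega
          constructor
          · intro j hj
            simp only at hj
            by_cases hj1 : j = c - 1
            · rw [hj1, Function.update_self] at hj
              exact absurd rfl hj
            · rw [Function.update_of_ne hj1] at hj
              exact absurd (hL j) hj
          · intro h0
            simp only at h0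
            have h01 : (0 : ZMod m) ≠ c - 1 := fun e => h1 e.symm
            rw [Function.update_of_ne h01] at h0
            exact absurd (hL 0) h0
        · have hv : (c - 1).val + 1 = c.val := val_pred' c hc
          constructor
          · intro j hj
            show j.val < (c - 1).val
            simp only at hj
            by_cases hj1 : j = c - 1
            · rw [hj1, Function.update_self] at hj
              exact absurd rfl hj
            · rw [Function.update_of_ne hj1] at hj
              have h2 := hA j hj
              have hjv : j.val ≠ (c - 1).val := fun e => hj1 (eq_of_val_eq e)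
              omega
          · intro h0 j hj
            simp only at h0 hj ⊢
            have h01 : (0 : ZMod m) ≠ c - 1 := fun e => h1 e.symm
            rw [Function.update_of_ne h01] at h0
            have hj1 : j ≠ c - 1 := by
              intro e
              rw [e] at hj
              omega
            rw [Function.update_of_ne hj1]
            exact hB h0 j (by omega)
    · have hd' : dn a = false := by simpa using hd
      rw [mStep_stay up dn tp (c, L) a hu' hd']
      exact ⟨hA, hB⟩

theorem step_one [NeZero m] (up dn tp : α → Bool) (y : ZMod m)
    (q : ZMod m × (ZMod m → Option Bool)) (a : α) (h : InvK q) :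
    (if (up a = true ∧ tp a = true) ∧ q.1 = y then 1 else 0)
        + (if q.2 y = some true then 1 else 0)
      = (if evPop up dn y q a = true then 1 else 0)
        + (if evArrY up tp y q a = true then 1 else 0)
        + (if (mStep up dn tp q a).2 y = some true then 1 else 0) := by
  obtain ⟨c, L⟩ := q
  obtain ⟨hA, hB⟩ := h
  simp only at hA hB
  have hLc : L c = none := by
    by_contra hc
    have := hA c hc
    omega
  by_cases hu : up a = true
  · have e1 : ∀ y' : ZMod m, evPop up dn y' (c, L) a = false := by
      intro y'
      simp [evPop, hu]
    by_cases h1 : c + 1 = 0
    · rw [mStep_up_arr up dn tp (c, L) a hu h1]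
      by_cases hy : c = y
      · subst hy
        by_cases ht : tp a = true
        · simp [evPop, evArrY, lam1, mBase, hu, h1, ht, hLc]
        · simp [evPop, evArrY, lam1, mBase, hu, h1, ht, hLc]
      · have hy' : y ≠ c := fun e => hy e.symm
        by_cases hL : L y = some true
        · simp [evPop, evArrY, lam1, mBase, hu, h1, hy, hy', hL]
        · simp [evPop, evArrY, lam1, mBase, hu, h1, hy, hy', hL]
    · rw [mStep_up up dn tp (c, L) a hu h1]
      have hv : (c + 1).val = c.val + 1 := val_succ' c h1
      have hne : c ≠ c + 1 := by
        intro e
        have := congrArg ZMod.val e
        rw [hv] at this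
        omega
      have hLc1 : L (c + 1) = none := by
        by_contra hc
        have := hA (c + 1) hc
        omega
      have e2 : ∀ y' : ZMod m, evArrY up tp y' (c, L) a = false := by
        intro y'
        simp [evArrY, h1]
      by_cases hy1 : y = c + 1
      · subst hy1
        simp [e1, e2, hLc1, hne]
      · by_cases hy : y = c
        · subst hy
          by_cases ht : tp a = true
          · simp [e1, e2, hLc, hu, ht, Function.update_of_ne hy1]
          · simp [e1, e2, hLc, hu, ht, Function.update_of_ne hy1]
        · have hy' : c ≠ y := fun e => hy e.symm
          by_cases hL : L y = some true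
          · simp [e1, e2, hy', hL, Function.update_of_ne hy1, Function.update_of_ne hy]
          · simp [e1, e2, hy', hL, Function.update_of_ne hy1, Function.update_of_ne hy]
  · have hu' : up a = false := by simpa using hu
    have e2 : ∀ y' : ZMod m, evArrY up tp y' (c, L) a = false := by
      intro y'
      simp [evArrY, hu']
    by_cases hd : dn a = true
    · by_cases h1 : c - 1 = 0
      · rw [mStep_dn_arr up dn tp (c, L) a hu' hd h1]
        by_cases hL : L y = some true
        · -- then y = 0
          have hy0 : y = 0 := by
            have hne : L y ≠ none := by rw [hL]; exact Option.some_ne_none _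
            have h2 := hA y hne
            have hc1 : c = 1 := sub_eq_zero.1 h1
            have h3 : c.val ≤ 1 := by
              rw [hc1, ZMod.val_one_eq_one_mod]
              exact Nat.mod_le 1 m
            have h4 : y.val = 0 := by omega
            apply eq_of_val_eq
            rw [h4, ZMod.val_zero]
          subst hy0
          simp [evPop, e2, mBase, hu', hd, h1, hL]
        · simp [evPop, e2, mBase, hu', hd, h1, hL]
      · rw [mStep_dn up dn tp (c, L) a hu' hd h1]
        by_cases hy : y = c - 1
        · subst hy
          by_cases hL : L (c - 1) = some true
          · simp [evPop, e2, hu', hd, hL]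
          · simp [evPop, e2, hu', hd, hL]
        · have hy' : c - 1 ≠ y := fun e => hy e.symm
          by_cases hL : L y = some true
          · simp [evPop, e2, hu', hd, hL, hy', Function.update_of_ne hy]
          · simp [evPop, e2, hu', hd, hL, hy', Function.update_of_ne hy]
    · have hd' : dn a = false := by simpa using hd
      rw [mStep_stay up dn tp (c, L) a hu' hd']
      have e1 : evPop up dn y (c, L) a = false := by simp [evPop, hd']
      simp [e1, e2, hu']

theorem id_one [NeZero m] (up dn tp : α → Bool) (y : ZMod m) :
    ∀ (w : List α) (q : ZMod m × (ZMod m → Option Bool)), InvK q →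
      cnt (dgPM m up dn) (fun a => up a = true ∧ tp a = true) y q.1 w
          + (if q.2 y = some true then 1 else 0)
        = bcount (mStep up dn tp) (evPop up dn y) q w
          + bcount (mStep up dn tp) (evArrY up tp y) q w
          + (if (run (mStep up dn tp) q w).2 y = some true then 1 else 0) := by
  intro w
  induction w with
  | nil =>
    intro q _
    show (0 : ℕ) + (if q.2 y = some true then 1 else 0)
      = 0 + 0 + (if q.2 y = some true then 1 else 0)
    omega
  | cons a w ih =>
    intro q hq
    have hstep := step_one up dn tp y q a hq
    have hih := ih (mStep up dn tp q a) (invK_step up dn tp q a hq)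
    have e : (mStep up dn tp q a).1 = q.1 + dgPM m up dn a := rfl
    rw [e] at hih
    have h1 : cnt (dgPM m up dn) (fun a => up a = true ∧ tp a = true) y q.1 (a :: w)
        = (if (up a = true ∧ tp a = true) ∧ q.1 = y then 1 else 0)
          + cnt (dgPM m up dn) (fun a => up a = true ∧ tp a = true) y
              (q.1 + dgPM m up dn a) w := rfl
    have h2 : bcount (mStep up dn tp) (evPop up dn y) q (a :: w)
        = (if evPop up dn y q a = true then 1 else 0)
          + bcount (mStep up dn tp) (evPop up dn y) (mStep up dn tp q a) w := rfl
    have h3 : bcount (mStep up dn tp) (evArrY up tp y) q (a :: w)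
        = (if evArrY up tp y q a = true then 1 else 0)
          + bcount (mStep up dn tp) (evArrY up tp y) (mStep up dn tp q a) w := rfl
    have h4 : (if (run (mStep up dn tp) q (a :: w)).2 y = some true then (1 : ℕ) else 0)
        = (if (run (mStep up dn tp) (mStep up dn tp q a) w).2 y = some true then (1 : ℕ)
            else 0) := rfl
    rw [h1, h2, h3, h4]
    omega

end Vale.Agent.Helper21
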