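import Mathlib

/-!
# A word which is a power of two words (problem P329, two-way clocks, task T4)

If a power of `τ` equals a power of the word spelled by a primitive pattern `s` on `ZMod m`,
then the length of `τ` is a multiple of `m`.
-/

namespace Vale.Agent.Helper21

/-- entries of a power of a word -/
theorem getElem?_flatten_replicate {β : Type} (l : List β) :
    ∀ (n p : ℕ), p < n * l.length →
      (List.replicate n l).flatten[p]? = l[p % l.length]? := by
  intro n
  induction n with
  | zero =>
    intro p hp
    simp at hp
  | succ n ih =>
    intro p hp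
    rw [List.replicate_succ, List.flatten_cons]
    by_cases h : p < l.length
    · rw [List.getElem?_append_left h, Nat.mod_eq_of_lt h]
    · have h' : l.length ≤ p := Nat.le_of_not_lt h
      rw [List.getElem?_append_right h']
      have hp' : p - l.length < n * l.length := by
        rw [Nat.succ_mul] at hp
        omega
      rw [ih (p - l.length) hp']
      congr 1
      conv_rhs => rw [← Nat.sub_add_cancel h', Nat.add_mod_right]

theorem len_of_pow_eq {m : ℕ} [NeZero m] (s : ZMod m → Bool)
    (hprim : ∀ g : ZMod m, (∀ i, s (i + g) = s i) → g = 0) (τ : List Bool) (n k : ℕ)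
    (hn : 0 < n)
    (h : (List.replicate n τ).flatten
      = (List.replicate k (List.ofFn (fun i : Fin m => s ((i : ℕ) : ZMod m)))).flatten) :
    ((τ.length : ℕ) : ZMod m) = 0 := by
  obtain ⟨W, hW⟩ : ∃ W : List Bool, W = List.ofFn (fun i : Fin m => s ((i : ℕ) : ZMod m)) :=
    ⟨_, rfl⟩
  rw [← hW] at h
  have hWlen : W.length = m := by rw [hW, List.length_ofFn]
  have hm : 0 < m := Nat.pos_of_ne_zero (NeZero.ne m)
  have hlen : n * τ.length = k * m := by
    have h1 := congrArg List.length h
    simpa [hWlen] using h1
  rcases Nat.eq_zero_or_pos k with hk | hk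
  · have h0 : n * τ.length = 0 := by rw [hlen, hk, Nat.zero_mul]
    have h1 : τ.length = 0 := by
      rcases Nat.mul_eq_zero.1 h0 with h2 | h2
      · omega
      · exact h2
    rw [h1, Nat.cast_zero]
  · have hkm : m ≤ k * m := Nat.le_mul_of_pos_left m hk
    have hτle : τ.length ≤ n * τ.length := Nat.le_mul_of_pos_left _ hn
    -- the doubled identity
    have h2 : (List.replicate (n + n) τ).flatten = (List.replicate (k + k) W).flatten := by
      rw [List.replicate_add, List.replicate_add, List.flatten_append, List.flatten_append, h]
    -- entries
    have key : ∀ p : ℕ, p < (n + n) * τ.length → τ[p % τ.length]? = some (s ((p : ℕ) : ZMod m)) := by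
      intro p hp
      have e1 := getElem?_flatten_replicate τ (n + n) p hp
      have hp2 : p < (k + k) * W.length := by
        rw [hWlen]
        have : (n + n) * τ.length = (k + k) * m := by
          rw [Nat.add_mul, Nat.add_mul, hlen]
        omega
      have e2 := getElem?_flatten_replicate W (k + k) p hp2
      rw [h2, e2] at e1
      rw [← e1, hWlen]
      have hlt : p % m < m := Nat.mod_lt _ hm
      have hlt' : p % m < W.length := by rw [hWlen]; exact hlt
      rw [List.getElem?_eq_getElem hlt']
      congr 1
      subst hW
      rw [List.getElem_ofFn]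
      show s (((p % m : ℕ)) : ZMod m) = s ((p : ℕ) : ZMod m)
      rw [ZMod.natCast_mod]
    apply hprim
    intro i
    have hi : i.val < m := ZMod.val_lt i
    have hb1 : i.val < (n + n) * τ.length := by
      rw [Nat.add_mul]
      omega
    have hb2 : i.val + τ.length < (n + n) * τ.length := by
      rw [Nat.add_mul]
      omega
    have k1 := key i.val hb1
    have k2 := key (i.val + τ.length) hb2
    rw [Nat.add_mod_right, k1] at k2
    have k3 := Option.some.inj k2
    rw [Nat.cast_add, ZMod.natCast_zmod_val] at k3
    exact k3.symm
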