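import Mathlib

/-!
Pure type systems (problem P340), with expressions in de Bruijn representation.
A specification is given by a type `S` of sorts, an axiom relation `Ax : S → S → Prop`
and a rule relation `Ru : S → S → S → Prop`.
-/

namespace Vale.Agent.Helper21.PTS

universe u

/-- Expressions `x | s | M N | λ x:A. M | Π x:A. B` with sorts from `S`; variables are
de Bruijn indices (`var 0` is the innermost bound variable). -/
inductive Tm (S : Type u) : Type u
  | var : ℕ → Tm S
  | sort : S → Tm S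
  | app : Tm S → Tm S → Tm S
  | lam : Tm S → Tm S → Tm S
  | pi : Tm S → Tm S → Tm S

/-- `lift d c M`: add `d` to every variable of `M` whose index is at least `c`. -/
def lift {S : Type u} (d : ℕ) : ℕ → Tm S → Tm S
  | c, Tm.var k => if k < c then Tm.var k else Tm.var (k + d)
  | _, Tm.sort s => Tm.sort s
  | c, Tm.app M N => Tm.app (lift d c M) (lift d c N)
  | c, Tm.lam A M => Tm.lam (lift d c A) (lift d (c + 1) M)
  | c, Tm.pi A B => Tm.pi (lift d c A) (lift d (c + 1) B)

/-- `subst N k M`: capture-avoiding substitution `M[k := N]`; variables above `k` drop by one. -/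
def subst {S : Type u} (N : Tm S) : ℕ → Tm S → Tm S
  | k, Tm.var j => if j < k then Tm.var j else if j = k then lift k 0 N else Tm.var (j - 1)
  | _, Tm.sort s => Tm.sort s
  | k, Tm.app M P => Tm.app (subst N k M) (subst N k P)
  | k, Tm.lam A M => Tm.lam (subst N k A) (subst N (k + 1) M)
  | k, Tm.pi A B => Tm.pi (subst N k A) (subst N (k + 1) B)

/-- One-step beta reduction: the compatible closure of `(λ x:A. M) N → M[x := N]`;
a step may occur in any subexpression, including domains of `λ` and `Π`. -/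
inductive Step {S : Type u} : Tm S → Tm S → Prop
  | beta (A M N : Tm S) : Step (Tm.app (Tm.lam A M) N) (subst N 0 M)
  | appL {M M' : Tm S} (N : Tm S) : Step M M' → Step (Tm.app M N) (Tm.app M' N)
  | appR (M : Tm S) {N N' : Tm S} : Step N N' → Step (Tm.app M N) (Tm.app M N')
  | lamD {A A' : Tm S} (M : Tm S) : Step A A' → Step (Tm.lam A M) (Tm.lam A' M)
  | lamB (A : Tm S) {M M' : Tm S} : Step M M' → Step (Tm.lam A M) (Tm.lam A M')
  | piD {A A' : Tm S} (B : Tm S) : Step A A' → Step (Tm.pi A B) (Tm.pi A' B)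
  | piC (A : Tm S) {B B' : Tm S} : Step B B' → Step (Tm.pi A B) (Tm.pi A B')

/-- Typing judgments `Γ ⊢ M : B` of the pure type system with axioms `Ax` and rules `Ru`.
A context is a list of types, most recent first; the seven rules are
Axiom, Variable, Weakening, Product, Abstraction, Application and Conversion
(beta-conversion is the equivalence generated by `Step`). -/
inductive Typ {S : Type u} (Ax : S → S → Prop) (Ru : S → S → S → Prop) :
    List (Tm S) → Tm S → Tm S → Prop
  | ax {s1 s2 : S} : Ax s1 s2 → Typ Ax Ru [] (Tm.sort s1) (Tm.sort s2)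
  | var {Γ : List (Tm S)} {A : Tm S} {s : S} : Typ Ax Ru Γ A (Tm.sort s) →
      Typ Ax Ru (A :: Γ) (Tm.var 0) (lift 1 0 A)
  | weak {Γ : List (Tm S)} {M B A : Tm S} {s : S} : Typ Ax Ru Γ M B →
      Typ Ax Ru Γ A (Tm.sort s) → Typ Ax Ru (A :: Γ) (lift 1 0 M) (lift 1 0 B)
  | prod {Γ : List (Tm S)} {A B : Tm S} {s1 s2 s3 : S} : Typ Ax Ru Γ A (Tm.sort s1) →
      Typ Ax Ru (A :: Γ) B (Tm.sort s2) → Ru s1 s2 s3 → Typ Ax Ru Γ (Tm.pi A B) (Tm.sort s3)
  | abs {Γ : List (Tm S)} {A M B : Tm S} {s : S} : Typ Ax Ru (A :: Γ) M B →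
      Typ Ax Ru Γ (Tm.pi A B) (Tm.sort s) → Typ Ax Ru Γ (Tm.lam A M) (Tm.pi A B)
  | app {Γ : List (Tm S)} {M N A B : Tm S} : Typ Ax Ru Γ M (Tm.pi A B) → Typ Ax Ru Γ N A →
      Typ Ax Ru Γ (Tm.app M N) (subst N 0 B)
  | conv {Γ : List (Tm S)} {M A B : Tm S} {s : S} : Typ Ax Ru Γ M A →
      Typ Ax Ru Γ B (Tm.sort s) → Relation.EqvGen Step A B → Typ Ax Ru Γ M B

/-- An expression is legal if it is the subject or the type of a derivable judgment. -/
def Legal {S : Type u} (Ax : S → S → Prop) (Ru : S → S → S → Prop) (M : Tm S) : Prop :=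
  ∃ (Γ : List (Tm S)) (B : Tm S), Typ Ax Ru Γ M B ∨ Typ Ax Ru Γ B M

/-- Beta-normal form: no reduction step is possible. -/
def Normal {S : Type u} (M : Tm S) : Prop := ∀ N : Tm S, ¬ Step M N

/-- Weak normalization: every legal expression beta-reduces to a normal form. -/
def WeaklyNormalizing {S : Type u} (Ax : S → S → Prop) (Ru : S → S → S → Prop) : Prop :=
  ∀ M : Tm S, Legal Ax Ru M → ∃ N : Tm S, Relation.ReflTransGen Step M N ∧ Normal N

/-- Strong normalization: no legal expression starts an infinite beta-reduction sequence. -/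
def StronglyNormalizing {S : Type u} (Ax : S → S → Prop) (Ru : S → S → S → Prop) : Prop :=
  ∀ M : Tm S, Legal Ax Ru M → ¬ ∃ f : ℕ → Tm S, f 0 = M ∧ ∀ n : ℕ, Step (f n) (f (n + 1))

end Vale.Agent.Helper21.PTS
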