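import Mathlib
import Vale.Agent.Helper21.PTSDefs

namespace Vale.Agent.Helper21.PTS

universe u v

/-- renaming of sorts -/
def Tm.map {S : Type u} {S' : Type v} (g : S → S') : Tm S → Tm S'
  | Tm.var k => Tm.var k
  | Tm.sort s => Tm.sort (g s)
  | Tm.app M N => Tm.app (Tm.map g M) (Tm.map g N)
  | Tm.lam A M => Tm.lam (Tm.map g A) (Tm.map g M)
  | Tm.pi A B => Tm.pi (Tm.map g A) (Tm.map g B)

lemma map_lift {S : Type u} {S' : Type v} (g : S → S') (d : ℕ) (M : Tm S) :
    ∀ c : ℕ, Tm.map g (lift d c M) = lift d c (Tm.map g M) := by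
  induction M with
  | var k => intro c; simp only [lift, Tm.map]; split_ifs <;> rfl
  | sort s => intro c; rfl
  | app M N ihM ihN => intro c; simp only [lift, Tm.map, ihM, ihN]
  | lam A M ihA ihM => intro c; simp only [lift, Tm.map, ihA, ihM]
  | pi A B ihA ihB => intro c; simp only [lift, Tm.map, ihA, ihB]

lemma map_subst {S : Type u} {S' : Type v} (g : S → S') (N : Tm S) (M : Tm S) :
    ∀ k : ℕ, Tm.map g (subst N k M) = subst (Tm.map g N) k (Tm.map g M) := by
  induction M with
  | var j =>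
    intro k
    simp only [subst, Tm.map]
    split_ifs
    · rfl
    · exact map_lift g k N 0
    · rfl
  | sort s => intro k; rfl
  | app M P ihM ihP => intro k; simp only [subst, Tm.map, ihM, ihP]
  | lam A M ihA ihM => intro k; simp only [subst, Tm.map, ihA, ihM]
  | pi A B ihA ihB => intro k; simp only [subst, Tm.map, ihA, ihB]

lemma map_map_id {S : Type u} {S' : Type v} (g : S' → S) (h : S → S') (hgh : ∀ s, g (h s) = s)
    (M : Tm S) : Tm.map g (Tm.map h M) = M := by
  induction M with
  | var k => rfl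
  | sort s => simp only [Tm.map, hgh]
  | app M N ihM ihN => simp only [Tm.map, ihM, ihN]
  | lam A M ihA ihM => simp only [Tm.map, ihA, ihM]
  | pi A B ihA ihB => simp only [Tm.map, ihA, ihB]

lemma Step.map {S : Type u} {S' : Type v} (g : S → S') {M N : Tm S} (h : Step M N) :
    Step (Tm.map g M) (Tm.map g N) := by
  induction h with
  | beta A M N =>
    simp only [Tm.map, map_subst]
    exact Step.beta _ _ _
  | appL N _ ih => exact Step.appL _ ih
  | appR M _ ih => exact Step.appR _ ih
  | lamD M _ ih => exact Step.lamD _ ih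
  | lamB A _ ih => exact Step.lamB _ ih
  | piD B _ ih => exact Step.piD _ ih
  | piC A _ ih => exact Step.piC _ ih

lemma step_of_map_step {S : Type u} {S' : Type v} (g : S → S') (M : Tm S) :
    ∀ N' : Tm S', Step (Tm.map g M) N' → ∃ N : Tm S, Step M N := by
  induction M with
  | var k => intro N' h; simp only [Tm.map] at h; cases h
  | sort s => intro N' h; simp only [Tm.map] at h; cases h
  | app M1 M2 ih1 ih2 =>
    intro N' h
    simp only [Tm.map] at h
    generalize hX : Tm.map g M1 = X at h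
    cases h with
    | beta A Mb Nn =>
      cases M1 with
      | lam A0 M0 => exact ⟨_, Step.beta A0 M0 M2⟩
      | var k => simp [Tm.map] at hX
      | sort s => simp [Tm.map] at hX
      | app a b => simp [Tm.map] at hX
      | pi a b => simp [Tm.map] at hX
    | appL _ h1 =>
      subst hX
      obtain ⟨N, hN⟩ := ih1 _ h1
      exact ⟨_, Step.appL M2 hN⟩
    | appR _ h2 =>
      obtain ⟨N, hN⟩ := ih2 _ h2
      exact ⟨_, Step.appR M1 hN⟩
  | lam A M ihA ihM =>
    intro N' h
    simp only [Tm.map] at h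
    cases h with
    | lamD _ h1 =>
      obtain ⟨N, hN⟩ := ihA _ h1
      exact ⟨_, Step.lamD M hN⟩
    | lamB _ h2 =>
      obtain ⟨N, hN⟩ := ihM _ h2
      exact ⟨_, Step.lamB A hN⟩
  | pi A B ihA ihB =>
    intro N' h
    simp only [Tm.map] at h
    cases h with
    | piD _ h1 =>
      obtain ⟨N, hN⟩ := ihA _ h1
      exact ⟨_, Step.piD B hN⟩
    | piC _ h2 =>
      obtain ⟨N, hN⟩ := ihB _ h2
      exact ⟨_, Step.piC A hN⟩

lemma Normal.map {S : Type u} {S' : Type v} (g : S → S') {M : Tm S} (h : Normal M) :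
    Normal (Tm.map g M) := by
  intro N' hN'
  obtain ⟨N, hN⟩ := step_of_map_step g M N' hN'
  exact h N hN

lemma conv_map {S : Type u} {S' : Type v} (g : S → S') {A B : Tm S}
    (h : Relation.EqvGen Step A B) : Relation.EqvGen Step (Tm.map g A) (Tm.map g B) := by
  induction h with
  | rel x y hxy => exact Relation.EqvGen.rel _ _ (Step.map g hxy)
  | refl x => exact Relation.EqvGen.refl _
  | symm x y _ ih => exact Relation.EqvGen.symm _ _ ih
  | trans x y z _ _ ih1 ih2 => exact Relation.EqvGen.trans _ _ _ ih1 ih2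

lemma red_map {S : Type u} {S' : Type v} (g : S → S') {A B : Tm S}
    (h : Relation.ReflTransGen Step A B) :
    Relation.ReflTransGen Step (Tm.map g A) (Tm.map g B) := by
  induction h with
  | refl => exact Relation.ReflTransGen.refl
  | tail _ hbc ih => exact Relation.ReflTransGen.tail ih (Step.map g hbc)

/-- typing is preserved by a renaming of sorts that respects axioms and rules -/
lemma Typ.map {S : Type u} {S' : Type v} (g : S → S')
    {Ax : S → S → Prop} {Ru : S → S → S → Prop} {Ax' : S' → S' → Prop}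
    {Ru' : S' → S' → S' → Prop}
    (hAx : ∀ a b, Ax a b → Ax' (g a) (g b)) (hRu : ∀ a b c, Ru a b c → Ru' (g a) (g b) (g c))
    {Γ : List (Tm S)} {M B : Tm S} (h : Typ Ax Ru Γ M B) :
    Typ Ax' Ru' (Γ.map (Tm.map g)) (Tm.map g M) (Tm.map g B) := by
  induction h with
  | ax h => exact Typ.ax (hAx _ _ h)
  | var _ ih =>
    simp only [List.map_cons, map_lift]
    exact Typ.var ih
  | weak _ _ ih1 ih2 =>
    simp only [List.map_cons, map_lift]
    exact Typ.weak ih1 ih2
  | prod _ _ hr ih1 ih2 => exact Typ.prod ih1 ih2 (hRu _ _ _ hr)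
  | abs _ _ ih1 ih2 => exact Typ.abs ih1 ih2
  | app _ _ ih1 ih2 =>
    simp only [map_subst]
    exact Typ.app ih1 ih2
  | conv _ _ hc ih1 ih2 => exact Typ.conv ih1 ih2 (conv_map g hc)

/-- typing is monotone in the specification -/
lemma Typ.mono {S : Type u}
    {Ax : S → S → Prop} {Ru : S → S → S → Prop} {Ax' : S → S → Prop}
    {Ru' : S → S → S → Prop}
    (hAx : ∀ a b, Ax a b → Ax' a b) (hRu : ∀ a b c, Ru a b c → Ru' a b c)
    {Γ : List (Tm S)} {M B : Tm S} (h : Typ Ax Ru Γ M B) : Typ Ax' Ru' Γ M B := by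
  induction h with
  | ax h => exact Typ.ax (hAx _ _ h)
  | var _ ih => exact Typ.var ih
  | weak _ _ ih1 ih2 => exact Typ.weak ih1 ih2
  | prod _ _ hr ih1 ih2 => exact Typ.prod ih1 ih2 (hRu _ _ _ hr)
  | abs _ _ ih1 ih2 => exact Typ.abs ih1 ih2
  | app _ _ ih1 ih2 => exact Typ.app ih1 ih2
  | conv _ _ hc ih1 ih2 => exact Typ.conv ih1 ih2 hc

/-- every derivation uses some axiom -/
lemma Typ.exists_axiom {S : Type u} {Ax : S → S → Prop} {Ru : S → S → S → Prop}
    {Γ : List (Tm S)} {M B : Tm S} (h : Typ Ax Ru Γ M B) : ∃ a b, Ax a b := by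
  induction h with
  | ax h => exact ⟨_, _, h⟩
  | var _ ih => exact ih
  | weak _ _ ih1 _ => exact ih1
  | prod _ _ _ ih1 _ => exact ih1
  | abs _ _ ih1 _ => exact ih1
  | app _ _ ih1 _ => exact ih1
  | conv _ _ _ ih1 _ => exact ih1

/-- every derivation uses finitely many axioms and rules -/
lemma Typ.finite_support {S : Type u} {Ax : S → S → Prop} {Ru : S → S → S → Prop}
    {Γ : List (Tm S)} {M B : Tm S} (h : Typ Ax Ru Γ M B) :
    ∃ (A0 : Finset (S × S)) (R0 : Finset (S × S × S)),
      (∀ p ∈ A0, Ax p.1 p.2) ∧ (∀ p ∈ R0, Ru p.1 p.2.1 p.2.2) ∧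
      Typ (fun a b => (a, b) ∈ A0) (fun a b c => (a, b, c) ∈ R0) Γ M B := by
  classical
  induction h with
  | @ax s1 s2 h =>
    refine ⟨{(s1, s2)}, ∅, ?_, ?_, ?_⟩
    · intro p hp
      rw [Finset.mem_singleton] at hp
      subst hp
      exact h
    · intro p hp; simp at hp
    · exact Typ.ax (by simp)
  | var _ ih =>
    obtain ⟨A0, R0, hA, hR, hT⟩ := ih
    exact ⟨A0, R0, hA, hR, Typ.var hT⟩
  | weak _ _ ih1 ih2 =>
    obtain ⟨A1, R1, hA1, hR1, hT1⟩ := ih1
    obtain ⟨A2, R2, hA2, hR2, hT2⟩ := ih2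
    refine ⟨A1 ∪ A2, R1 ∪ R2, ?_, ?_, ?_⟩
    · intro p hp
      rcases Finset.mem_union.mp hp with h | h
      · exact hA1 p h
      · exact hA2 p h
    · intro p hp
      rcases Finset.mem_union.mp hp with h | h
      · exact hR1 p h
      · exact hR2 p h
    · exact Typ.weak
        (Typ.mono (fun a b h => Finset.mem_union_left _ h)
          (fun a b c h => Finset.mem_union_left _ h) hT1)
        (Typ.mono (fun a b h => Finset.mem_union_right _ h)
          (fun a b c h => Finset.mem_union_right _ h) hT2)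
  | @prod Γ A B s1 s2 s3 _ _ hr ih1 ih2 =>
    obtain ⟨A1, R1, hA1, hR1, hT1⟩ := ih1
    obtain ⟨A2, R2, hA2, hR2, hT2⟩ := ih2
    refine ⟨A1 ∪ A2, insert (s1, s2, s3) (R1 ∪ R2), ?_, ?_, ?_⟩
    · intro p hp
      rcases Finset.mem_union.mp hp with h | h
      · exact hA1 p h
      · exact hA2 p h
    · intro p hp
      rcases Finset.mem_insert.mp hp with h | h
      · subst h; exact hr
      · rcases Finset.mem_union.mp h with h | h
        · exact hR1 p h
        · exact hR2 p h
    · exact Typ.prod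
        (Typ.mono (fun a b h => Finset.mem_union_left _ h)
          (fun a b c h => Finset.mem_insert_of_mem (Finset.mem_union_left _ h)) hT1)
        (Typ.mono (fun a b h => Finset.mem_union_right _ h)
          (fun a b c h => Finset.mem_insert_of_mem (Finset.mem_union_right _ h)) hT2)
        (Finset.mem_insert_self _ _)
  | abs _ _ ih1 ih2 =>
    obtain ⟨A1, R1, hA1, hR1, hT1⟩ := ih1
    obtain ⟨A2, R2, hA2, hR2, hT2⟩ := ih2
    refine ⟨A1 ∪ A2, R1 ∪ R2, ?_, ?_, ?_⟩
    · intro p hp
      rcases Finset.mem_union.mp hp with h | h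
      · exact hA1 p h
      · exact hA2 p h
    · intro p hp
      rcases Finset.mem_union.mp hp with h | h
      · exact hR1 p h
      · exact hR2 p h
    · exact Typ.abs
        (Typ.mono (fun a b h => Finset.mem_union_left _ h)
          (fun a b c h => Finset.mem_union_left _ h) hT1)
        (Typ.mono (fun a b h => Finset.mem_union_right _ h)
          (fun a b c h => Finset.mem_union_right _ h) hT2)
  | app _ _ ih1 ih2 =>
    obtain ⟨A1, R1, hA1, hR1, hT1⟩ := ih1
    obtain ⟨A2, R2, hA2, hR2, hT2⟩ := ih2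
    refine ⟨A1 ∪ A2, R1 ∪ R2, ?_, ?_, ?_⟩
    · intro p hp
      rcases Finset.mem_union.mp hp with h | h
      · exact hA1 p h
      · exact hA2 p h
    · intro p hp
      rcases Finset.mem_union.mp hp with h | h
      · exact hR1 p h
      · exact hR2 p h
    · exact Typ.app
        (Typ.mono (fun a b h => Finset.mem_union_left _ h)
          (fun a b c h => Finset.mem_union_left _ h) hT1)
        (Typ.mono (fun a b h => Finset.mem_union_right _ h)
          (fun a b c h => Finset.mem_union_right _ h) hT2)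
  | conv _ _ hc ih1 ih2 =>
    obtain ⟨A1, R1, hA1, hR1, hT1⟩ := ih1
    obtain ⟨A2, R2, hA2, hR2, hT2⟩ := ih2
    refine ⟨A1 ∪ A2, R1 ∪ R2, ?_, ?_, ?_⟩
    · intro p hp
      rcases Finset.mem_union.mp hp with h | h
      · exact hA1 p h
      · exact hA2 p h
    · intro p hp
      rcases Finset.mem_union.mp hp with h | h
      · exact hR1 p h
      · exact hR2 p h
    · exact Typ.conv
        (Typ.mono (fun a b h => Finset.mem_union_left _ h)
          (fun a b c h => Finset.mem_union_left _ h) hT1)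
        (Typ.mono (fun a b h => Finset.mem_union_right _ h)
          (fun a b c h => Finset.mem_union_right _ h) hT2) hc

lemma Legal.map {S : Type u} {S' : Type v} (g : S → S')
    {Ax : S → S → Prop} {Ru : S → S → S → Prop} {Ax' : S' → S' → Prop}
    {Ru' : S' → S' → S' → Prop}
    (hAx : ∀ a b, Ax a b → Ax' (g a) (g b)) (hRu : ∀ a b c, Ru a b c → Ru' (g a) (g b) (g c))
    {M : Tm S} (h : Legal Ax Ru M) : Legal Ax' Ru' (Tm.map g M) := by
  obtain ⟨Γ, B, h | h⟩ := h
  · exact ⟨_, _, Or.inl (Typ.map g hAx hRu h)⟩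
  · exact ⟨_, _, Or.inr (Typ.map g hAx hRu h)⟩

/-- Restriction to finitely many sorts: a specification that is weakly but not strongly
normalizing has a restriction to finitely many of its sorts with the same defect. -/
theorem exists_finite_restriction {S : Type u} (Ax : S → S → Prop) (Ru : S → S → S → Prop)
    (hWN : WeaklyNormalizing Ax Ru) (hSN : ¬ StronglyNormalizing Ax Ru) :
    ∃ (n : ℕ) (h : Fin n → S), Function.Injective h ∧
      WeaklyNormalizing (fun a b => Ax (h a) (h b)) (fun a b c => Ru (h a) (h b) (h c)) ∧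
      ¬ StronglyNormalizing (fun a b => Ax (h a) (h b)) (fun a b c => Ru (h a) (h b) (h c)) := by
  classical
  unfold StronglyNormalizing at hSN
  push Not at hSN
  obtain ⟨M, hM, f, hf0, hf⟩ := hSN
  -- a finite set of axioms and rules making `M` legal
  obtain ⟨A0, R0, hA0, hR0, hleg, hne⟩ : ∃ (A0 : Finset (S × S)) (R0 : Finset (S × S × S)),
      (∀ p ∈ A0, Ax p.1 p.2) ∧ (∀ p ∈ R0, Ru p.1 p.2.1 p.2.2) ∧
      Legal (fun a b => (a, b) ∈ A0) (fun a b c => (a, b, c) ∈ R0) M ∧ A0.Nonempty := by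
    obtain ⟨Γ, B, h | h⟩ := hM
    · obtain ⟨A0, R0, hA, hR, hT⟩ := h.finite_support
      obtain ⟨a, b, hab⟩ := hT.exists_axiom
      exact ⟨A0, R0, hA, hR, ⟨Γ, B, Or.inl hT⟩, ⟨_, hab⟩⟩
    · obtain ⟨A0, R0, hA, hR, hT⟩ := h.finite_support
      obtain ⟨a, b, hab⟩ := hT.exists_axiom
      exact ⟨A0, R0, hA, hR, ⟨Γ, B, Or.inr hT⟩, ⟨_, hab⟩⟩
  -- the finite set of sorts involved
  set S0 : Finset S := A0.image Prod.fst ∪ A0.image Prod.snd ∪ R0.image (fun p => p.1) ∪
    R0.image (fun p => p.2.1) ∪ R0.image (fun p => p.2.2) with hS0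
  have hmemA1 : ∀ a b, (a, b) ∈ A0 → a ∈ S0 := by
    intro a b hab
    simp only [hS0, Finset.mem_union, Finset.mem_image]
    exact Or.inl (Or.inl (Or.inl (Or.inl ⟨(a, b), hab, rfl⟩)))
  have hmemA2 : ∀ a b, (a, b) ∈ A0 → b ∈ S0 := by
    intro a b hab
    simp only [hS0, Finset.mem_union, Finset.mem_image]
    exact Or.inl (Or.inl (Or.inl (Or.inr ⟨(a, b), hab, rfl⟩)))
  have hmemR1 : ∀ a b c, (a, b, c) ∈ R0 → a ∈ S0 := by
    intro a b c hab
    simp only [hS0, Finset.mem_union, Finset.mem_image]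
    exact Or.inl (Or.inl (Or.inr ⟨(a, b, c), hab, rfl⟩))
  have hmemR2 : ∀ a b c, (a, b, c) ∈ R0 → b ∈ S0 := by
    intro a b c hab
    simp only [hS0, Finset.mem_union, Finset.mem_image]
    exact Or.inl (Or.inr ⟨(a, b, c), hab, rfl⟩)
  have hmemR3 : ∀ a b c, (a, b, c) ∈ R0 → c ∈ S0 := by
    intro a b c hab
    simp only [hS0, Finset.mem_union, Finset.mem_image]
    exact Or.inr ⟨(a, b, c), hab, rfl⟩
  obtain ⟨⟨a0, b0⟩, hab0⟩ := hne
  have ha0 : a0 ∈ S0 := hmemA1 a0 b0 hab0
  let e : S0 ≃ Fin S0.card := S0.equivFin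
  let h : Fin S0.card → S := fun i => ((e.symm i : S0) : S)
  have hinj : Function.Injective h := by
    intro i j hij
    have : e.symm i = e.symm j := Subtype.ext hij
    exact e.symm.injective this
  let g : S → Fin S0.card := fun s => if hs : s ∈ S0 then e ⟨s, hs⟩ else e ⟨a0, ha0⟩
  have hgh : ∀ i, g (h i) = i := by
    intro i
    have hmem : h i ∈ S0 := (e.symm i).2
    simp only [g, dif_pos hmem]
    have : (⟨h i, hmem⟩ : S0) = e.symm i := Subtype.ext rfl
    rw [this, Equiv.apply_symm_apply]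
  have hhg : ∀ s, s ∈ S0 → h (g s) = s := by
    intro s hs
    simp only [g, dif_pos hs, h, Equiv.symm_apply_apply]
  refine ⟨S0.card, h, hinj, ?_, ?_⟩
  · -- weak normalization of the restriction
    intro N' hN'
    have hleg' : Legal Ax Ru (Tm.map h N') :=
      Legal.map h (fun a b hab => hab) (fun a b c habc => habc) hN'
    obtain ⟨nf, hred, hnf⟩ := hWN _ hleg'
    refine ⟨Tm.map g nf, ?_, Normal.map g hnf⟩
    have := red_map g hred
    rw [map_map_id g h hgh] at this
    exact this
  · -- failure of strong normalization of the restriction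
    unfold StronglyNormalizing
    push Not
    refine ⟨Tm.map g M, ?_, fun n => Tm.map g (f n), ?_, ?_⟩
    · apply Legal.map g _ _ hleg
      · intro a b hab
        show Ax (h (g a)) (h (g b))
        rw [hhg a (hmemA1 a b hab), hhg b (hmemA2 a b hab)]
        exact hA0 (a, b) hab
      · intro a b c habc
        show Ru (h (g a)) (h (g b)) (h (g c))
        rw [hhg a (hmemR1 a b c habc), hhg b (hmemR2 a b c habc), hhg c (hmemR3 a b c habc)]
        exact hR0 (a, b, c) habc
    · show Tm.map g (f 0) = Tm.map g M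
      rw [hf0]
    · intro n
      exact Step.map g (hf n)

end Vale.Agent.Helper21.PTS
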